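import Vale.Agent.P195.L.Exact

/-! The diagram chases over `E`. -/

namespace Vale.Agent.P195

open Module LinearMap Function

variable {k : Type} [Field k]

theorem add_self_char2 [CharP k 2] {V : Type} [AddCommGroup V] [Module k V] (x : V) :
    x + x = 0 := by
  have h : (2 : k) = 0 := CharTwo.two_eq_zero
  rw [← two_smul k x, h, zero_smul]

namespace Pack

variable (X : Pack k)

/-- The differential. -/
def d (n : ℕ) : X.P (n + 1) →ₗ[X.R] X.P n := X.inc n ∘ₗ X.pr (n + 1)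

theorem d_apply (n : ℕ) (x : X.P (n + 1)) : X.d n x = X.inc n (X.pr (n + 1) x) := rfl

@[simp] theorem pr_inc (n : ℕ) (y : X.Y (n + 1)) : X.pr n (X.inc n y) = 0 :=
  (X.exact n).apply_apply_eq_zero y

theorem exact_d0 (n : ℕ) : Exact (X.d n) (X.pr n) := by
  intro x
  rw [X.exact n x]
  constructor
  · rintro ⟨y, rfl⟩
    obtain ⟨z, rfl⟩ := X.pr_surj _ y
    exact ⟨z, rfl⟩
  · rintro ⟨z, rfl⟩
    exact ⟨_, rfl⟩

theorem exact_d (n : ℕ) : Exact (X.d (n + 1)) (X.d n) := by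
  intro x
  rw [← X.exact_d0 (n + 1) x, d_apply, map_eq_zero_iff _ (X.inc_inj n)]

variable {X} (D : X.EData)

/-- The context attached to the data. -/
def EData.ctx : Ctx k X.R := ⟨D.S, D.σ, D.fix, D.tr0⟩

namespace EData

include D in
theorem hE_proj {Q : Type} [AddCommGroup Q] [Module X.R Q] [Module.Projective X.R Q]
    [Module.Finite X.R Q] (n : ℕ) (f : X.Y (n + 1) →ₗ[X.R] Q) :
    ∃ g : X.P n →ₗ[X.R] Q, ∀ y, g (X.inc n y) = f y := by
  obtain ⟨m, x, l, hl⟩ := exists_dual_basis X.R Q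
  choose g hg using fun i => D.hE n (l i ∘ₗ f)
  refine ⟨∑ i, LinearMap.toSpanSingleton X.R Q (x i) ∘ₗ g i, fun y => ?_⟩
  have : ∀ i, g i (X.inc n y) = l i (f y) := fun i => LinearMap.congr_fun (hg i) y
  simp [LinearMap.sum_apply, this, hl]

theorem blin_sum {M N : Type} [AddCommGroup M] [AddCommGroup N] [Module k M] [Module k N]
    [Module X.R M] [Module X.R N] {ι : Type} (s : Finset ι) (f : ι → M →ₗ[k] N)
    (hf : ∀ i, BLin D.S (f i)) : BLin D.S (∑ i ∈ s, f i) := fun b hb x => by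
  simp only [LinearMap.sum_apply, Finset.smul_sum]
  exact Finset.sum_congr rfl fun i _ => hf i b hb x

theorem hB_proj {Q : Type} [AddCommGroup Q] [Module X.R Q] [Module k Q] [IsScalarTower k X.R Q]
    [Module.Projective X.R Q] [Module.Finite X.R Q] (n : ℕ) (f : X.Y (n + 1) →ₗ[k] Q)
    (hf : BLin D.S f) : ∃ g : X.P n →ₗ[k] Q, BLin D.S g ∧ ∀ y, g (X.inc n y) = f y := by
  obtain ⟨m, x, l, hl⟩ := exists_dual_basis X.R Q
  choose g hg hg' using fun i => D.hB n ((l i).restrictScalars k ∘ₗ f) ((BLin.of_lin _).comp hf)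
  refine ⟨∑ i, (LinearMap.toSpanSingleton X.R Q (x i)).restrictScalars k ∘ₗ g i,
    D.blin_sum _ _ fun i => (BLin.of_lin _).comp (hg i), fun y => ?_⟩
  simp [LinearMap.sum_apply, hg', hl]

theorem sP_blin (n : ℕ) : BLin D.S (D.sP n) := (D.sP_semi n).blin D.fix
theorem sY_blin (n : ℕ) : BLin D.S (D.sY n) := (D.sY_semi n).blin D.fix

/-- traces on `Y 2` -/
theorem trace_Y2 (f : X.Y 2 →ₗ[k] X.Y 2) (hf : BLin D.S f) :
    trace k (X.Y 2) (D.sY 2 ∘ₗ f) = trace k (X.Y 2) f := by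
  obtain ⟨c, g, hg, h⟩ := D.b2 f hf
  have e1 : f = c • LinearMap.id + (X.pr 2).restrictScalars k ∘ₗ g := by
    ext y
    simp [h y]
  have e2 : D.sY 2 ∘ₗ f = c • D.sY 2 + (D.sY 2 ∘ₗ (X.pr 2).restrictScalars k) ∘ₗ g := by
    ext y
    simp [h y]
  rw [e2]
  conv_rhs => rw [e1]
  rw [map_add, map_add, map_smul, map_smul, D.t1, D.t2, trace_comp_comm', trace_comp_comm' g,
    D.ctx.trace_blin _ (hg.comp ((D.sY_blin 2).comp (BLin.of_lin _))),
    D.ctx.trace_blin _ (hg.comp (BLin.of_lin _))]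

/-- The invariant in the construction of the homotopies. -/
def Inv (n : ℕ) (r : (X.P n →ₗ[k] X.Y (n + 1)) × (X.P n →ₗ[k] X.Y (n + 1))) : Prop :=
  D.ctx.Orth r.1 r.2 ∧ (∀ y, r.1 (X.inc n y) = y) ∧ ∀ y, r.2 (X.inc n y) = D.sY (n + 1) y

variable [CharP k 2]

theorem inv_base : ∃ r, D.Inv 1 r := by
  obtain ⟨r, hr⟩ := kextend ((X.inc 1).restrictScalars k) (X.inc_inj 1) LinearMap.id
  have hr' : ∀ y, r (X.inc 1 y) = y := hr
  obtain ⟨ξ, hξ⟩ := core1 (S := D.S) ((X.pr 1).restrictScalars k) (r + D.sY 2 ∘ₗ r)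
    (fun χ hχ h0 => by
      obtain ⟨χ₀, hχ₀⟩ := factor_inj' ((X.inc 1).restrictScalars k) (X.inc_inj 1) χ (fun x =>
        (X.exact 1 _).1 (LinearMap.congr_fun h0 x))
      have hb := BLin.of_comp_inj (X.inc 1) (X.inc_inj 1) hχ hχ₀
      have h4 : χ = (X.inc 1).restrictScalars k ∘ₗ χ₀ := by
        ext x
        exact (hχ₀ x).symm
      rw [h4, LinearMap.comp_assoc, trace_comp_comm']
      have : (χ₀ ∘ₗ (r + D.sY 2 ∘ₗ r)) ∘ₗ (X.inc 1).restrictScalars k = χ₀ + χ₀ ∘ₗ D.sY 2 := by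
        ext y
        simp [hr']
      rw [this, map_add, trace_comp_comm' (D.sY 2) χ₀, D.trace_Y2 χ₀ hb]
      exact add_self_char2 (k := k) _)
  refine ⟨(r + ξ ∘ₗ (X.pr 1).restrictScalars k, D.sY 2 ∘ₗ r), fun χ hχ => ?_, fun y => ?_,
    fun y => ?_⟩
  · rw [← hξ χ hχ]
    congr 2
    dsimp only
    abel
  · simp [hr']
  · simp [hr']

theorem inv_step (n : ℕ) (r : (X.P n →ₗ[k] X.Y (n + 1)) × (X.P n →ₗ[k] X.Y (n + 1)))
    (hr : D.Inv n r) :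
    ∃ (γ : (X.P n →ₗ[k] X.P (n + 1)) × (X.P n →ₗ[k] X.P (n + 1)))
      (r' : (X.P (n + 1) →ₗ[k] X.Y (n + 2)) × (X.P (n + 1) →ₗ[k] X.Y (n + 2))),
      D.Inv (n + 1) r' ∧ D.ctx.Orth γ.1 γ.2 ∧ (∀ x, X.pr (n + 1) (γ.1 x) = r.1 x) ∧
      (∀ x, X.pr (n + 1) (γ.2 x) = r.2 x) ∧
      (∀ x, X.inc (n + 1) (r'.1 x) = x + γ.1 (X.d n x)) ∧
      (∀ x, X.inc (n + 1) (r'.2 x) = D.sP (n + 1) x + γ.2 (X.d n x)) := by
  obtain ⟨γ₁, γ₂, hO, h1, h2⟩ := D.ctx.orth_lift (X.inc (n + 1)) (X.pr (n + 1)) (X.pr_surj _)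
    (X.exact _) hr.1
  obtain ⟨r₁, hr₁⟩ := factor_inj' ((X.inc (n + 1)).restrictScalars k) (X.inc_inj _)
    (LinearMap.id + γ₁ ∘ₗ (X.d n).restrictScalars k) (fun x => by
      apply (X.exact _ _).1
      simp only [LinearMap.add_apply, LinearMap.id_apply, LinearMap.comp_apply,
        LinearMap.restrictScalars_apply, map_add, h1, d_apply, hr.2.1]
      exact add_self_char2 (k := k) _)
  obtain ⟨r₂, hr₂⟩ := factor_inj' ((X.inc (n + 1)).restrictScalars k) (X.inc_inj _)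
    (D.sP (n + 1) + γ₂ ∘ₗ (X.d n).restrictScalars k) (fun x => by
      apply (X.exact _ _).1
      simp only [LinearMap.add_apply, LinearMap.comp_apply,
        LinearMap.restrictScalars_apply, map_add, h2, d_apply, hr.2.2, D.pr_s]
      exact add_self_char2 (k := k) _)
  have e1 : ∀ x, X.inc (n + 1) (r₁ x) = x + γ₁ (X.d n x) := hr₁
  have e2 : ∀ x, X.inc (n + 1) (r₂ x) = D.sP (n + 1) x + γ₂ (X.d n x) := hr₂
  refine ⟨(γ₁, γ₂), (r₁, r₂), ⟨fun χ hχ => ?_, fun y => ?_, fun y => ?_⟩, hO, h1, h2, e1, e2⟩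
  · obtain ⟨φ, hφ, hφ'⟩ := D.hB_proj (n + 1) χ hχ
    have : χ ∘ₗ (r₁ + r₂) = φ ∘ₗ (LinearMap.id + D.sP (n + 1)) +
        (φ ∘ₗ (γ₁ + γ₂)) ∘ₗ (X.d n).restrictScalars k := by
      ext x
      simp only [LinearMap.comp_apply, LinearMap.add_apply, ← hφ', map_add, e1, e2,
        LinearMap.id_apply, LinearMap.restrictScalars_apply]
      abel
    dsimp only
    rw [this, map_add, D.ctx.trace_blin _ (hφ.comp (BLin.id.add (D.sP_blin _))), zero_add,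
      trace_comp_comm', ← LinearMap.comp_assoc]
    exact hO _ ((BLin.of_lin _).comp hφ)
  · apply X.inc_inj
    simp [e1, d_apply]
  · apply X.inc_inj
    simp [e2, d_apply, D.inc_s]

/-- The homotopies. -/
theorem exists_gamma : ∃ γ₁ γ₂ : ∀ n, X.P (n + 1) →ₗ[k] X.P (n + 2),
    (∀ n, D.ctx.Orth (γ₁ n) (γ₂ n)) ∧
    (∀ n y, X.pr (n + 2) (γ₁ n (X.inc (n + 1) y)) = y) ∧
    (∀ n y, X.pr (n + 2) (γ₂ n (X.inc (n + 1) y)) = D.sY (n + 2) y) ∧
    (∀ n x, X.d (n + 2) (γ₁ (n + 1) x) = x + γ₁ n (X.d (n + 1) x)) ∧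
    (∀ n x, X.d (n + 2) (γ₂ (n + 1) x) = D.sP (n + 2) x + γ₂ n (X.d (n + 1) x)) := by
  choose γ r' h0 hO h1 h2 h3 h4 using D.inv_step
  obtain ⟨r0, hr0⟩ := D.inv_base
  let seq : ∀ n, {r // D.Inv (n + 1) r} := fun n =>
    Nat.rec ⟨r0, hr0⟩ (fun n r => ⟨r' (n + 1) r.1 r.2, h0 _ _ _⟩) n
  have hseq : ∀ n, (seq (n + 1)).1 = r' (n + 1) (seq n).1 (seq n).2 := fun n => rfl
  refine ⟨fun n => (γ (n + 1) (seq n).1 (seq n).2).1, fun n => (γ (n + 1) (seq n).1 (seq n).2).2,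
    fun n => hO _ _ _, fun n y => ?_, fun n y => ?_, fun n x => ?_, fun n x => ?_⟩
  · rw [h1, (seq n).2.2.1]
  · rw [h2, (seq n).2.2.2]
  · rw [d_apply, h1, hseq, h3]
  · rw [d_apply, h2, hseq, h4]

end EData

end Pack

end Vale.Agent.P195
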