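import Vale.Agent.P195.L.Chase

/-! The main diagram chases over `E`. -/

namespace Vale.Agent.P195

open Module LinearMap Function

variable {k : Type} [Field k]

namespace Pack

variable {X : Pack k} (D : X.EData)

theorem factor_pr {N : Type} [AddCommGroup N] [Module X.R N] (n : ℕ) (f : X.P n →ₗ[X.R] N)
    (hf : ∀ y, f (X.inc n y) = 0) : ∃ g : X.Y n →ₗ[X.R] N, ∀ x, g (X.pr n x) = f x :=
  factor_surj (X.pr n) (X.pr_surj n) f (fun x hx => by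
    obtain ⟨y, rfl⟩ := (X.exact n x).1 hx
    exact hf y)

theorem kfactor_pr {N : Type} [AddCommGroup N] [Module k N] (n : ℕ) (f : X.P n →ₗ[k] N)
    (hf : ∀ y, f (X.inc n y) = 0) : ∃ g : X.Y n →ₗ[k] N, ∀ x, g (X.pr n x) = f x :=
  factor_surj ((X.pr n).restrictScalars k) (X.pr_surj n) f (fun x hx => by
    obtain ⟨y, rfl⟩ := (X.exact n x).1 hx
    exact hf y)

theorem comp_inc_of_comp_d {N : Type} [AddCommGroup N] [Module X.R N] {n : ℕ}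
    {f : X.P n →ₗ[X.R] N} (hf : f ∘ₗ X.d n = 0) (y : X.Y (n + 1)) : f (X.inc n y) = 0 := by
  obtain ⟨x, rfl⟩ := X.pr_surj _ y
  exact LinearMap.congr_fun hf x

namespace EData

include D in
theorem vanP {Q : Type} [AddCommGroup Q] [Module X.R Q] [Module.Projective X.R Q]
    [Module.Finite X.R Q] (n : ℕ) (f : X.P (n + 1) →ₗ[X.R] Q)
    (hf : ∀ y, f (X.inc (n + 1) y) = 0) : ∃ g : X.P n →ₗ[X.R] Q, ∀ x, f x = g (X.d n x) := by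
  obtain ⟨u, hu⟩ := factor_pr (n + 1) f hf
  obtain ⟨g, hg⟩ := D.hE_proj n u
  exact ⟨g, fun x => by rw [d_apply, hg, hu]⟩

section

variable {N : Type} [AddCommGroup N] [Module k N] [Module X.R N] [IsScalarTower k X.R N]
  [FiniteDimensional k N]

theorem trace_theta {n : ℕ} {c : X.P n →ₗ[X.R] D.ctx.F N} {ψ₁ ψ₂ : X.P n →ₗ[k] N}
    (hc : D.ctx.Rep c ψ₁ ψ₂) (b₁ b₂ : X.P n →ₗ[k] N) (hb₁ : Semi (id : X.R → X.R) b₁)
    (hb₂ : Semi D.σ b₂) (θ₁ θ₂ : X.Y n →ₗ[k] N) (h₁ : ∀ x, ψ₁ x = b₁ x + θ₁ (X.pr n x))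
    (h₂ : ∀ x, ψ₂ x = b₂ x + θ₂ (X.pr n x)) (g : N →ₗ[k] X.P n) (hg : BLin D.S g) :
    trace k (X.Y n) (((X.pr n).restrictScalars k ∘ₗ g) ∘ₗ (θ₁ + θ₂)) = 0 := by
  rw [LinearMap.comp_assoc, trace_comp_comm']
  have h3 := Ctx.Rep.orth D.ctx hc g hg
  have h4 : g ∘ₗ (ψ₁ + ψ₂) = g ∘ₗ (b₁ + b₂) + (g ∘ₗ (θ₁ + θ₂)) ∘ₗ (X.pr n).restrictScalars k := by
    ext x
    simp only [LinearMap.comp_apply, LinearMap.add_apply, h₁, h₂, map_add,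
      LinearMap.restrictScalars_apply]
    abel
  rw [h4, map_add, D.ctx.trace_blin _
    (hg.comp ((hb₁.blin (fun _ _ => rfl)).add (hb₂.blin D.fix))), zero_add] at h3
  exact h3

theorem exists_theta {n : ℕ} (ψ b : X.P n →ₗ[k] N) (h : ∀ y, ψ (X.inc n y) = b (X.inc n y)) :
    ∃ θ : X.Y n →ₗ[k] N, ∀ x, ψ x = b x + θ (X.pr n x) := by
  obtain ⟨θ, hθ⟩ := kfactor_pr n (ψ - b) (fun y => by simp [h])
  exact ⟨θ, fun x => by simp [hθ]⟩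

theorem cobA {n : ℕ} {c : X.P (n + 1) →ₗ[X.R] D.ctx.F N} {ψ₁ ψ₂ : X.P (n + 1) →ₗ[k] N}
    (hc : D.ctx.Rep c ψ₁ ψ₂) (b₁ b₂ : X.P (n + 1) →ₗ[k] N) (hb₁ : Semi (id : X.R → X.R) b₁)
    (hb₂ : Semi D.σ b₂) (h₁ : ∀ y, ψ₁ (X.inc _ y) = b₁ (X.inc _ y))
    (h₂ : ∀ y, ψ₂ (X.inc _ y) = b₂ (X.inc _ y))
    (hl : ∀ f : N →ₗ[k] X.Y (n + 1), BLin D.S f →
      ∃ g : N →ₗ[k] X.P (n + 1), BLin D.S g ∧ ∀ y, X.pr (n + 1) (g y) = f y) :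
    ∃ c' : X.P n →ₗ[X.R] D.ctx.F N, c = c' ∘ₗ X.d n := by
  obtain ⟨θ₁, e₁⟩ := exists_theta ψ₁ b₁ h₁
  obtain ⟨θ₂, e₂⟩ := exists_theta ψ₂ b₂ h₂
  refine D.ctx.cob (X.pr (n + 1)) (X.inc n) (X.inc_inj n) (X.pr n) (X.exact n) hc b₁ b₂ hb₁ hb₂
    θ₁ θ₂ e₁ e₂ (fun χ hχ => ?_)
  obtain ⟨g, hg, hg'⟩ := hl χ hχ
  have : χ = (X.pr (n + 1)).restrictScalars k ∘ₗ g := by
    ext y
    exact (hg' y).symm
  rw [this]
  exact D.trace_theta hc b₁ b₂ hb₁ hb₂ θ₁ θ₂ e₁ e₂ g hg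

end

theorem cobY {n : ℕ} {c : X.P (n + 1) →ₗ[X.R] D.ctx.F (X.Y 2)}
    {ψ₁ ψ₂ : X.P (n + 1) →ₗ[k] X.Y 2}
    (hc : D.ctx.Rep c ψ₁ ψ₂) (b₁ b₂ : X.P (n + 1) →ₗ[k] X.Y 2) (hb₁ : Semi (id : X.R → X.R) b₁)
    (hb₂ : Semi D.σ b₂) (h₁ : ∀ y, ψ₁ (X.inc _ y) = b₁ (X.inc _ y))
    (h₂ : ∀ y, ψ₂ (X.inc _ y) = b₂ (X.inc _ y)) :
    ∃ c' : X.P n →ₗ[X.R] D.ctx.F (X.Y 2), c = c' ∘ₗ X.d n := by
  by_cases hn : n = 1
  · subst hn
    obtain ⟨θ₁, e₁⟩ := exists_theta ψ₁ b₁ h₁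
    obtain ⟨θ₂, e₂⟩ := exists_theta ψ₂ b₂ h₂
    change X.Y 2 →ₗ[k] X.Y 2 at θ₁ θ₂
    let c₀ : k := trace k (X.Y 2) (θ₁ + θ₂)
    have hb₁' : Semi (id : X.R → X.R) (b₁ + c₀ • (X.pr 2).restrictScalars k) :=
      hb₁.add (Semi.smul c₀ (Semi.of_lin _))
    have e₁' : ∀ x, ψ₁ x = (b₁ + c₀ • (X.pr 2).restrictScalars k) x +
        (θ₁ - c₀ • LinearMap.id : X.Y 2 →ₗ[k] X.Y 2) (X.pr 2 x) := fun x => by
      simp [e₁]
    refine D.ctx.cob (X.pr 2) (X.inc 1) (X.inc_inj 1) (X.pr 1) (X.exact 1) hc _ b₂ hb₁' hb₂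
      _ θ₂ e₁' e₂ (fun χ hχ => ?_)
    obtain ⟨a, g, hg, hg'⟩ := D.b2 χ hχ
    have : χ = a • LinearMap.id + (X.pr 2).restrictScalars k ∘ₗ g := by
      ext y
      simp [hg' y]
    rw [this, LinearMap.add_comp, map_add, D.trace_theta hc _ b₂ hb₁' hb₂ _ θ₂ e₁' e₂ g hg,
      add_zero, LinearMap.smul_comp, LinearMap.id_comp, map_smul]
    have : θ₁ - c₀ • LinearMap.id + θ₂ = (θ₁ + θ₂) - c₀ • LinearMap.id := by abel
    rw [this, map_sub, map_smul, D.t1]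
    simp [c₀]
  · exact D.cobA hc b₁ b₂ hb₁ hb₂ h₁ h₂ (D.b1 n hn)

theorem vanF (n : ℕ) (c : X.P (n + 1) →ₗ[X.R] D.ctx.F X.R) (hc : c ∘ₗ X.d (n + 1) = 0) :
    ∃ c' : X.P n →ₗ[X.R] D.ctx.F X.R, c = c' ∘ₗ X.d n := by
  obtain ⟨ψ₁, ψ₂, hr⟩ := D.ctx.exists_rep c
  have h0 : c ∘ₗ X.inc (n + 1) = 0 := LinearMap.ext fun y => comp_inc_of_comp_d hc y
  obtain ⟨s1, s2⟩ := (Ctx.Rep.eq_zero_iff D.ctx (Ctx.Rep.comp D.ctx hr (X.inc (n + 1)))).1 h0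
  obtain ⟨b₁, hb₁⟩ := D.hE (n + 1) s1.toLin
  have s3 : Semi (id : X.R → X.R)
      (D.σ.symm.toLinearMap ∘ₗ ψ₂ ∘ₗ (X.inc (n + 1)).restrictScalars k) := fun e x => by
    have := s2 e x
    simp only [LinearMap.comp_apply] at this ⊢
    rw [this]
    change D.σ.symm (D.σ e * _) = e * _
    simp
  obtain ⟨b₂, hb₂⟩ := D.hE (n + 1) s3.toLin
  refine D.cobA hr (b₁.restrictScalars k) (D.σ.toLinearMap ∘ₗ b₂.restrictScalars k)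
    (Semi.of_lin _) (fun e x => by simp) (fun y => ?_) (fun y => ?_) (D.bproj (n + 1))
  · exact (LinearMap.congr_fun hb₁ y).symm
  · have : b₂ (X.inc _ y) = D.σ.symm (ψ₂ (X.inc _ y)) := LinearMap.congr_fun hb₂ y
    simp [this]

variable [CharP k 2]

/-- All data about the connecting map `g`. -/
structure GData where
  γ₁ : ∀ n, X.P (n + 1) →ₗ[k] X.P (n + 2)
  γ₂ : ∀ n, X.P (n + 1) →ₗ[k] X.P (n + 2)
  g : ∀ n, X.P (n + 1) →ₗ[X.R] D.ctx.F (X.P (n + 2))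
  rep : ∀ n, D.ctx.Rep (g n) (γ₁ n) (γ₂ n)
  e₁ : ∀ n y, X.pr (n + 2) (γ₁ n (X.inc (n + 1) y)) = y
  e₂ : ∀ n y, X.pr (n + 2) (γ₂ n (X.inc (n + 1) y)) = D.sY (n + 2) y
  hg : ∀ n x, D.ctx.Fmap (X.d (n + 2)) (g (n + 1) x) + g n (X.d (n + 1) x) = 0

theorem exists_gdata : Nonempty D.GData := by
  obtain ⟨γ₁, γ₂, hO, e₁, e₂, e₃, e₄⟩ := D.exists_gamma
  choose g hg using fun n => D.ctx.exists_of_orth (hO n)
  refine ⟨⟨γ₁, γ₂, g, hg, e₁, e₂, fun n x => ?_⟩⟩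
  have h := Ctx.Rep.add D.ctx (Ctx.Rep.map D.ctx (hg (n + 1)) (X.d (n + 2)))
    (Ctx.Rep.comp D.ctx (hg n) (X.d (n + 1)))
  have h0 := (Ctx.Rep.eq_zero_iff D.ctx h).2 ⟨by
      convert (Semi.id : Semi (id : X.R → X.R) (LinearMap.id : X.P (n + 2) →ₗ[k] _)) using 1
      ext x
      simp only [LinearMap.add_apply, LinearMap.comp_apply, LinearMap.restrictScalars_apply, e₃,
        add_assoc, add_self_char2 (k := k), add_zero, LinearMap.id_apply], by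
      have : (X.d (n + 2)).restrictScalars k ∘ₗ γ₂ (n + 1) +
          γ₂ n ∘ₗ (X.d (n + 1)).restrictScalars k = D.sP (n + 2) := by
        ext x
        simp only [LinearMap.add_apply, LinearMap.comp_apply, LinearMap.restrictScalars_apply, e₄,
          add_assoc, add_self_char2 (k := k), add_zero]
      rw [this]
      exact D.sP_semi (n + 2)⟩
  exact LinearMap.congr_fun h0 x

variable {D} (G : D.GData)

theorem GData.inj (n : ℕ) (c0 : X.P (n + 1) →ₗ[X.R] X.P 0) (c1 : X.P (n + 2) →ₗ[X.R] X.P 1)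
    (h : X.P (n + 3) →ₗ[X.R] X.Y 2) (c' : X.P (n + 1) →ₗ[X.R] D.ctx.F (X.Y 2))
    (h1 : X.d 0 ∘ₗ c1 = c0 ∘ₗ X.d (n + 1)) (h2 : h ∘ₗ X.d (n + 3) = 0)
    (h3 : (D.ctx.Fmap (X.pr 2) ∘ₗ G.g 0) ∘ₗ c1 =
      c' ∘ₗ X.d (n + 1) + D.ctx.Fmap h ∘ₗ G.g (n + 1)) :
    (∃ h' : X.P (n + 2) →ₗ[X.R] X.Y 2, h = h' ∘ₗ X.d (n + 2)) ∧
      ∃ s : X.P n →ₗ[X.R] X.Y 0, X.pr 0 ∘ₗ c0 = s ∘ₗ X.d n := by
  obtain ⟨β₁, β₂, hβ⟩ := D.ctx.exists_rep c'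
  have r1 := Ctx.Rep.comp D.ctx (Ctx.Rep.map D.ctx (G.rep 0) (X.pr 2)) c1
  have r2 := Ctx.Rep.add D.ctx (Ctx.Rep.comp D.ctx hβ (X.d (n + 1)))
    (Ctx.Rep.map D.ctx (G.rep (n + 1)) h)
  obtain ⟨s1, s2⟩ := (Ctx.Rep.eq_iff D.ctx r1 r2).1 h3
  have h1' : ∀ x, X.d 0 (c1 x) = c0 (X.d (n + 1) x) := fun x => LinearMap.congr_fun h1 x
  obtain ⟨hb, hhb⟩ := factor_pr (n + 3) h (comp_inc_of_comp_d h2)
  obtain ⟨a₀, ha₀⟩ := factor_inj' (X.inc 1) (X.inc_inj 1) (c1 ∘ₗ X.inc (n + 2)) (fun y => by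
    apply (X.exact 1 _).1
    apply X.inc_inj 0
    have := h1' (X.inc (n + 2) y)
    rw [d_apply, d_apply, pr_inc] at this
    simpa using this)
  have ha₀' : ∀ y, c1 (X.inc (n + 2) y) = X.inc 1 (a₀ y) := fun y => (ha₀ y).symm
  set a₁ := s1.toLin with ha₁
  have f1 : ∀ y, a₁ (X.inc (n + 2) y) = a₀ y - hb y := fun y => by
    simp [ha₁, ha₀', G.e₁, d_apply, ← hhb]
  obtain ⟨h'', hh''⟩ := D.h1 n hb _ (((D.sY_semi 2).comp (Semi.of_lin a₁)).add s2) (fun y => by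
    simp only [LinearMap.add_apply, LinearMap.comp_apply, LinearMap.restrictScalars_apply, f1,
      LinearMap.sub_apply, ha₀', G.e₂, d_apply, pr_inc, map_zero, zero_add, ← hhb, map_sub]
    have t1 := add_self_char2 (k := k) (D.sY 2 (a₀ y))
    have t2 := add_self_char2 (k := k) (D.sY 2 (hb y))
    have t3 := add_self_char2 (k := k) (hb (D.sY (n + 3) y))
    linear_combination (norm := abel) t2 + t3 - t1)
  have f2 : ∀ y, h'' (X.inc (n + 2) y) = hb y := fun y => LinearMap.congr_fun hh'' y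
  refine ⟨⟨h'', LinearMap.ext fun x => ?_⟩, ?_⟩
  · simp [d_apply, f2, hhb]
  obtain ⟨b, hb'⟩ := D.vanP (n + 1) (c1 - X.inc 1 ∘ₗ (a₁ + h'')) (fun y => by
    simp [ha₀', f1, f2])
  obtain ⟨b', hb''⟩ := D.vanP n (c0 - X.d 0 ∘ₗ b) (fun y => by
    obtain ⟨x, rfl⟩ := X.pr_surj _ y
    have e := hb' x
    simp only [LinearMap.sub_apply, LinearMap.comp_apply] at e ⊢
    rw [← d_apply, ← h1', ← e, map_sub, d_apply X 0 (X.inc 1 _), pr_inc]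
    simp)
  refine ⟨X.pr 0 ∘ₗ b', LinearMap.ext fun x => ?_⟩
  simp only [LinearMap.comp_apply, ← hb'', LinearMap.sub_apply, map_sub]
  simp only [d_apply, pr_inc, sub_zero]

theorem GData.surj (n : ℕ) (b : X.P (n + 1) →ₗ[X.R] D.ctx.F (X.Y 2))
    (hb : b ∘ₗ X.d (n + 1) = 0) :
    ∃ (c0 : X.P n →ₗ[X.R] X.P 0) (c1 : X.P (n + 1) →ₗ[X.R] X.P 1)
      (h : X.P (n + 2) →ₗ[X.R] X.Y 2) (c' : X.P n →ₗ[X.R] D.ctx.F (X.Y 2)),
      X.d 0 ∘ₗ c1 = c0 ∘ₗ X.d n ∧ h ∘ₗ X.d (n + 2) = 0 ∧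
      b + (D.ctx.Fmap (X.pr 2) ∘ₗ G.g 0) ∘ₗ c1 = c' ∘ₗ X.d n + D.ctx.Fmap h ∘ₗ G.g n := by
  obtain ⟨β₁, β₂, hβ⟩ := D.ctx.exists_rep b
  have h0 : b ∘ₗ X.inc (n + 1) = 0 := LinearMap.ext fun y => comp_inc_of_comp_d hb y
  obtain ⟨s1, s2⟩ := (Ctx.Rep.eq_zero_iff D.ctx (Ctx.Rep.comp D.ctx hβ (X.inc (n + 1)))).1 h0
  have s3 : Semi D.σ (β₂ ∘ₗ (X.inc (n + 1)).restrictScalars k +
      D.sY 2 ∘ₗ β₁ ∘ₗ (X.inc (n + 1)).restrictScalars k) := Semi.add s2 ((D.sY_semi 2).comp s1)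
  have key : ∃ (hb : X.Y (n + 2) →ₗ[X.R] X.Y 2) (a' : X.P (n + 1) →ₗ[k] X.Y 2), Semi D.σ a' ∧
      ∀ y, β₂ (X.inc _ y) + D.sY 2 (β₁ (X.inc _ y)) =
        D.sY 2 (hb y) + hb (D.sY (n + 2) y) + a' (X.inc (n + 1) y) := by
    cases n with
    | succ m => exact D.h2 m _ s3
    | zero =>
      obtain ⟨c, hb, a', ha', e⟩ := D.h2' _ s3
      refine ⟨hb, a', ha', fun y => ?_⟩
      suffices hc : c = 0 by simpa [hc] using e y
      have e' : β₂ ∘ₗ (X.inc 1).restrictScalars k + D.sY 2 ∘ₗ β₁ ∘ₗ (X.inc 1).restrictScalars k =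
          D.sY 2 ∘ₗ hb.restrictScalars k + hb.restrictScalars k ∘ₗ D.sY 2 +
            a' ∘ₗ (X.inc 1).restrictScalars k + c • D.sY 2 := LinearMap.ext e
      have t := congrArg (trace k (X.Y 2)) e'
      have t0 := Ctx.Rep.orth D.ctx hβ ((X.inc 1).restrictScalars k) (BLin.of_lin _)
      rw [trace_comp_comm', LinearMap.add_comp, map_add] at t0
      rw [map_add, D.trace_Y2 _ (s1.blin (fun _ _ => rfl)), add_comm, t0, map_add, map_add,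
        map_add, trace_comp_comm' (D.sY 2), add_self_char2 (k := k), map_smul, D.t2,
        trace_comp_comm', D.ctx.trace_blin _ ((BLin.of_lin _).comp (ha'.blin D.fix))] at t
      simpa using t.symm
  obtain ⟨hb, a', ha', e⟩ := key
  obtain ⟨c1, hc1⟩ := D.hE_proj (n + 1) (X.inc 1 ∘ₗ (s1.toLin + hb))
  obtain ⟨c0, hc0⟩ := D.vanP n (X.d 0 ∘ₗ c1) (fun y => by simp [hc1, d_apply])
  have r := Ctx.Rep.add D.ctx (Ctx.Rep.add D.ctx hβ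
    (Ctx.Rep.comp D.ctx (Ctx.Rep.map D.ctx (G.rep 0) (X.pr 2)) c1))
    (Ctx.Rep.map D.ctx (G.rep n) (hb ∘ₗ X.pr (n + 2)))
  obtain ⟨c', hc'⟩ := D.cobY r 0 a' Semi.zero ha' (fun y => by
      simp only [LinearMap.add_apply, LinearMap.comp_apply, LinearMap.restrictScalars_apply, hc1,
        G.e₁, Semi.toLin_apply, LinearMap.zero_apply]
      have t1 := add_self_char2 (k := k) (β₁ (X.inc _ y))
      have t2 := add_self_char2 (k := k) (hb y)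
      linear_combination (norm := abel) t1 + t2) (fun y => by
      simp only [LinearMap.add_apply, LinearMap.comp_apply, LinearMap.restrictScalars_apply, hc1,
        G.e₂, Semi.toLin_apply, map_add]
      have t1 := add_self_char2 (k := k) (D.sY 2 (hb y))
      have t2 := add_self_char2 (k := k) (hb (D.sY (n + 2) y))
      linear_combination (norm := abel) e y + t1 + t2)
  refine ⟨c0, c1, hb ∘ₗ X.pr (n + 2), c', LinearMap.ext hc0, LinearMap.ext fun x => ?_, ?_⟩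
  · simp [d_apply]
  · rw [← hc', add_assoc, add_assoc]
    congr 1
    refine LinearMap.ext fun x => ?_
    simp only [LinearMap.add_apply, add_self_char2 (k := k), add_zero]

end EData

end Pack

end Vale.Agent.P195
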