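import Mathlib

/-! Abstract mapping-cone chase over a ring `R`. -/

namespace Vale.Agent.P195

open Function

/-- Data for the cone construction. -/
structure ConeData (R : Type) [Ring R] (A B : ℕ → Type) [∀ n, AddCommGroup (A n)]
    [∀ n, Module R (A n)] [∀ n, AddCommGroup (B n)] [∀ n, Module R (B n)] (MA MB : Type)
    [AddCommGroup MA] [Module R MA] [AddCommGroup MB] [Module R MB] where
  dA : ∀ n, A (n + 1) →ₗ[R] A n
  dB : ∀ n, B (n + 1) →ₗ[R] B n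
  εA : A 0 →ₗ[R] MA
  εB : B 0 →ₗ[R] MB
  g : ∀ n, A (n + 1) →ₗ[R] B n
  εA_surj : Surjective εA
  εB_surj : Surjective εB
  A0 : Exact (dA 0) εA
  B0 : Exact (dB 0) εB
  An : ∀ n, Exact (dA (n + 1)) (dA n)
  Bn : ∀ n, Exact (dB (n + 1)) (dB n)
  hg : ∀ n x, dB n (g (n + 1) x) + g n (dA (n + 1) x) = 0

namespace ConeData

variable {R : Type} [Ring R] {A B : ℕ → Type} [∀ n, AddCommGroup (A n)]
  [∀ n, Module R (A n)] [∀ n, AddCommGroup (B n)] [∀ n, Module R (B n)] {MA MB : Type}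
  [AddCommGroup MA] [Module R MA] [AddCommGroup MB] [Module R MB]
  (C : ConeData R A B MA MB)

def d (n : ℕ) : A (n + 1) × B (n + 1) →ₗ[R] A n × B n :=
  LinearMap.prod (C.dA n ∘ₗ LinearMap.fst R _ _)
    (C.g n ∘ₗ LinearMap.fst R _ _ + C.dB n ∘ₗ LinearMap.snd R _ _)

@[simp] theorem d_apply (n : ℕ) (x : A (n + 1) × B (n + 1)) :
    C.d n x = (C.dA n x.1, C.g n x.1 + C.dB n x.2) := rfl

def g' : A 1 →ₗ[R] MB := C.εB ∘ₗ C.g 0

def rel : Submodule R (A 0 × MB) := LinearMap.range (LinearMap.prod (C.dA 0) C.g')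

abbrev M : Type := (A 0 × MB) ⧸ C.rel

def qk : A 0 × MB →ₗ[R] C.M := C.rel.mkQ

theorem mk_surj : Surjective C.qk := Submodule.mkQ_surjective _

theorem mk_eq_zero (x : A 0 × MB) : C.qk x = 0 ↔ ∃ a, C.dA 0 a = x.1 ∧ C.g' a = x.2 := by
  have : C.qk x = 0 ↔ x ∈ C.rel := Submodule.Quotient.mk_eq_zero _
  rw [this]
  constructor
  · rintro ⟨a, rfl⟩
    exact ⟨a, rfl, rfl⟩
  · rintro ⟨a, h1, h2⟩
    exact ⟨a, Prod.ext h1 h2⟩

def ε : A 0 × B 0 →ₗ[R] C.M := C.qk ∘ₗ LinearMap.prodMap LinearMap.id C.εB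

theorem ε_apply (x : A 0 × B 0) : C.ε x = C.qk (x.1, C.εB x.2) := rfl

theorem ε_surj : Surjective C.ε := by
  intro m
  obtain ⟨⟨a, b⟩, rfl⟩ := C.mk_surj m
  obtain ⟨b', rfl⟩ := C.εB_surj b
  exact ⟨(a, b'), rfl⟩

theorem g'_dA (x : A 2) : C.g' (C.dA 1 x) = 0 := by
  have h := congrArg C.εB (C.hg 0 x)
  rw [map_add, C.B0.apply_apply_eq_zero, zero_add, map_zero] at h
  exact h

theorem exact0 : Exact (C.d 0) C.ε := by
  rintro ⟨a, b⟩
  rw [ε_apply, mk_eq_zero]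
  constructor
  · rintro ⟨a', h1, h2⟩
    have : C.εB (b - C.g 0 a') = 0 := by
      rw [map_sub]
      exact sub_eq_zero.2 h2.symm
    obtain ⟨b', hb'⟩ := (C.B0 _).1 this
    refine ⟨(a', b'), ?_⟩
    simp only [d_apply, hb']
    exact Prod.ext h1 (by simp)
  · rintro ⟨⟨a', b'⟩, h⟩
    simp only [d_apply, Prod.mk.injEq] at h
    refine ⟨a', h.1, ?_⟩
    simp only [← h.2, map_add, C.B0.apply_apply_eq_zero, add_zero]
    rfl

theorem exactn (n : ℕ) : Exact (C.d (n + 1)) (C.d n) := by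
  rintro ⟨a, b⟩
  constructor
  · intro h
    simp only [d_apply, Prod.mk_eq_zero] at h
    obtain ⟨a', rfl⟩ := (C.An n _).1 h.1
    have : C.dB n (b - C.g (n + 1) a') = 0 := by
      rw [map_sub, eq_neg_of_add_eq_zero_left (C.hg n a'), sub_neg_eq_add, add_comm]
      exact h.2
    obtain ⟨b', hb'⟩ := (C.Bn n _).1 this
    refine ⟨(a', b'), ?_⟩
    simp [hb']
  · rintro ⟨⟨a', b'⟩, h⟩
    rw [← h]
    simp only [d_apply, map_add, (C.An n).apply_apply_eq_zero, (C.Bn n).apply_apply_eq_zero,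
      add_zero, Prod.mk_eq_zero, true_and]
    rw [add_comm]
    exact C.hg n a'

def j : MB →ₗ[R] C.M := C.qk ∘ₗ LinearMap.inr R _ _

theorem j_apply (b : MB) : C.j b = C.qk (0, b) := rfl

theorem j_inj : Injective C.j := by
  rw [injective_iff_map_eq_zero]
  intro b hb
  rw [j_apply, mk_eq_zero] at hb
  obtain ⟨a, h1, h2⟩ := hb
  obtain ⟨a', rfl⟩ := (C.An 0 _).1 h1
  rw [g'_dA] at h2
  exact h2.symm

def ρ : C.M →ₗ[R] MA :=
  C.rel.liftQ (C.εA ∘ₗ LinearMap.fst R _ _) (by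
    rintro _ ⟨a, rfl⟩
    simp [C.A0.apply_apply_eq_zero])

theorem ρ_mk (x : A 0 × MB) : C.ρ (C.qk x) = C.εA x.1 := rfl

theorem ρ_surj : Surjective C.ρ := by
  intro m
  obtain ⟨a, rfl⟩ := C.εA_surj m
  exact ⟨C.qk (a, 0), rfl⟩

theorem j_ρ : Exact C.j C.ρ := by
  intro m
  obtain ⟨⟨a, b⟩, rfl⟩ := C.mk_surj m
  rw [ρ_mk]
  constructor
  · intro h
    obtain ⟨a', rfl⟩ := (C.A0 _).1 h
    refine ⟨b - C.g' a', ?_⟩
    rw [j_apply, ← sub_eq_zero, ← map_sub, mk_eq_zero]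
    exact ⟨-a', by simp, by simp⟩
  · rintro ⟨b', h⟩
    have := congrArg C.ρ h
    rw [j_apply, ρ_mk, ρ_mk] at this
    simpa using this.symm

theorem factor_inj {R M N P : Type} [Ring R] [AddCommGroup M] [AddCommGroup N] [AddCommGroup P]
    [Module R M] [Module R N] [Module R P] (i : M →ₗ[R] N) (hi : Injective i) (f : P →ₗ[R] N)
    (h : ∀ x, ∃ y, i y = f x) : ∃ g : P →ₗ[R] M, i ∘ₗ g = f := by
  refine ⟨(LinearEquiv.ofInjective i hi).symm.toLinearMap ∘ₗ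
    f.codRestrict (LinearMap.range i) (fun x => h x), ?_⟩
  ext x
  simp only [LinearMap.comp_apply, LinearEquiv.coe_coe]
  have := (LinearEquiv.ofInjective i hi).apply_symm_apply
    (f.codRestrict (LinearMap.range i) (fun x => h x) x)
  exact congrArg Subtype.val this

theorem lift_range {R M N P : Type} [Ring R] [AddCommGroup M] [AddCommGroup N] [AddCommGroup P]
    [Module R M] [Module R N] [Module R P] [Module.Projective R P] (i : M →ₗ[R] N)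
    (f : P →ₗ[R] N) (h : ∀ x, ∃ y, i y = f x) : ∃ g : P →ₗ[R] M, i ∘ₗ g = f := by
  obtain ⟨g, hg⟩ := Module.projective_lifting_property i.rangeRestrict
    (f.codRestrict (LinearMap.range i) (fun x => h x)) i.surjective_rangeRestrict
  refine ⟨g, ?_⟩
  ext x
  exact congrArg Subtype.val (LinearMap.congr_fun hg x)

/-- Vanishing for the cone from vanishing for both pieces. -/
theorem van_of_van {T : Type} [AddCommGroup T] [Module R T]
    (hA : ∀ (n : ℕ) (c : A (n + 1) →ₗ[R] T), c ∘ₗ C.dA (n + 1) = 0 →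
      ∃ b : A n →ₗ[R] T, c = b ∘ₗ C.dA n)
    (hB : ∀ (n : ℕ) (c : B (n + 1) →ₗ[R] T), c ∘ₗ C.dB (n + 1) = 0 →
      ∃ b : B n →ₗ[R] T, c = b ∘ₗ C.dB n)
    (n : ℕ) (c : A (n + 1) × B (n + 1) →ₗ[R] T) (hc : c ∘ₗ C.d (n + 1) = 0) :
    ∃ b : A n × B n →ₗ[R] T, c = b ∘ₗ C.d n := by
  have hc' : ∀ x, c (C.d (n + 1) x) = 0 := fun x => LinearMap.congr_fun hc x
  obtain ⟨h', hh'⟩ := hB n (c ∘ₗ LinearMap.inr R _ _) (by
    ext y
    simpa using hc' (0, y))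
  have hh : ∀ y, c (0, y) = h' (C.dB n y) := fun y => LinearMap.congr_fun hh' y
  obtain ⟨s, hs⟩ := hA n (c ∘ₗ LinearMap.inl R _ _ - h' ∘ₗ C.g n) (by
    ext x
    have h1 := hc' (x, 0)
    simp only [d_apply, map_zero, add_zero] at h1
    rw [← Prod.fst_add_snd (C.dA (n + 1) x, C.g (n + 1) x), map_add, hh] at h1
    have h2 := congrArg h' (C.hg n x)
    rw [map_add, map_zero] at h2
    simp only [LinearMap.comp_apply, LinearMap.sub_apply, LinearMap.inl_apply,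
      LinearMap.zero_apply]
    linear_combination (norm := abel) h1 - h2)
  have hs' : ∀ x, c (x, 0) - h' (C.g n x) = s (C.dA n x) := fun x => LinearMap.congr_fun hs x
  refine ⟨s ∘ₗ LinearMap.fst R _ _ + h' ∘ₗ LinearMap.snd R _ _, ?_⟩
  refine LinearMap.ext fun x => ?_
  obtain ⟨a, b⟩ := x
  simp only [LinearMap.comp_apply, d_apply, LinearMap.add_apply, LinearMap.fst_apply,
    LinearMap.snd_apply, map_add]
  rw [← Prod.fst_add_snd (a, b), map_add, hh, ← hs']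
  abel

/-- The main chase: self-extensions of the cone vanish. -/
theorem van_self [∀ n, Module.Projective R (A n)]
    (hBA : ∀ (n : ℕ) (f : B n →ₗ[R] MA), f = 0)
    (hinj : ∀ (n : ℕ) (c0 : A (n + 1) →ₗ[R] A 0) (c1 : A (n + 2) →ₗ[R] A 1)
      (h : B (n + 1) →ₗ[R] MB) (c' : A (n + 1) →ₗ[R] MB),
      C.dA 0 ∘ₗ c1 = c0 ∘ₗ C.dA (n + 1) → h ∘ₗ C.dB (n + 1) = 0 →
      C.g' ∘ₗ c1 = c' ∘ₗ C.dA (n + 1) + h ∘ₗ C.g (n + 1) →
      (∃ h' : B n →ₗ[R] MB, h = h' ∘ₗ C.dB n) ∧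
        ∃ s : A n →ₗ[R] MA, C.εA ∘ₗ c0 = s ∘ₗ C.dA n)
    (hsurj : ∀ (n : ℕ) (b : A (n + 1) →ₗ[R] MB), b ∘ₗ C.dA (n + 1) = 0 →
      ∃ (c0 : A n →ₗ[R] A 0) (c1 : A (n + 1) →ₗ[R] A 1) (h : B n →ₗ[R] MB)
        (c' : A n →ₗ[R] MB), C.dA 0 ∘ₗ c1 = c0 ∘ₗ C.dA n ∧ h ∘ₗ C.dB n = 0 ∧
        b + C.g' ∘ₗ c1 = c' ∘ₗ C.dA n + h ∘ₗ C.g n)
    (n : ℕ) (c : A (n + 1) × B (n + 1) →ₗ[R] C.M) (hc : c ∘ₗ C.d (n + 1) = 0) :
    ∃ b : A n × B n →ₗ[R] C.M, c = b ∘ₗ C.d n := by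
  have hc' : ∀ x, c (C.d (n + 1) x) = 0 := fun x => LinearMap.congr_fun hc x
  -- the B-component lands in MB
  obtain ⟨h, hh⟩ := factor_inj C.j C.j_inj (c ∘ₗ LinearMap.inr R _ _) (fun y => by
    have := LinearMap.congr_fun (hBA (n + 1) (C.ρ ∘ₗ c ∘ₗ LinearMap.inr R _ _)) y
    exact (C.j_ρ _).1 this)
  have hh1 : ∀ y, C.j (h y) = c (0, y) := fun y => LinearMap.congr_fun hh y
  have hhd : h ∘ₗ C.dB (n + 1) = 0 := by
    ext y
    apply C.j_inj
    simp only [LinearMap.comp_apply, hh1, LinearMap.zero_apply, map_zero]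
    simpa using hc' (0, y)
  -- lift the A-component
  obtain ⟨cl, hcl⟩ := Module.projective_lifting_property C.qk (c ∘ₗ LinearMap.inl R _ _) C.mk_surj
  have hcl1 : ∀ x, C.qk (cl x) = c (x, 0) := fun x => LinearMap.congr_fun hcl x
  obtain ⟨c1, hc1⟩ := lift_range (LinearMap.prod (C.dA 0) C.g')
    (cl ∘ₗ C.dA (n + 1) + LinearMap.inr R _ _ ∘ₗ h ∘ₗ C.g (n + 1)) (fun x => by
      have h1 := hc' (x, 0)
      simp only [d_apply, map_zero, add_zero] at h1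
      rw [← Prod.fst_add_snd (C.dA (n + 1) x, C.g (n + 1) x), map_add, ← hh1, ← hcl1, j_apply,
        ← map_add, mk_eq_zero] at h1
      obtain ⟨a, h2, h3⟩ := h1
      exact ⟨a, Prod.ext h2 h3⟩)
  have hc1' := fun x => LinearMap.congr_fun hc1 x
  obtain ⟨⟨h', hh'⟩, s, hs⟩ := hinj n (LinearMap.fst R _ _ ∘ₗ cl) c1 h (LinearMap.snd R _ _ ∘ₗ cl)
    (by ext x; simpa using congrArg Prod.fst (hc1' x)) hhd
    (by ext x; simpa using congrArg Prod.snd (hc1' x))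
  obtain ⟨sl, hsl⟩ := Module.projective_lifting_property C.ρ s C.ρ_surj
  have hsl1 : ∀ x, C.ρ (sl x) = s x := fun x => LinearMap.congr_fun hsl x
  have hh'1 : ∀ y, h y = h' (C.dB n y) := fun y => LinearMap.congr_fun hh' y
  have hs1 : ∀ x, C.εA (cl x).1 = s (C.dA n x) := fun x => LinearMap.congr_fun hs x
  obtain ⟨b, hb⟩ := factor_inj C.j C.j_inj
    (c ∘ₗ LinearMap.inl R _ _ - sl ∘ₗ C.dA n - C.j ∘ₗ h' ∘ₗ C.g n) (fun x => by
      apply (C.j_ρ _).1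
      simp only [LinearMap.sub_apply, LinearMap.comp_apply, LinearMap.inl_apply, map_sub, hsl1,
        C.j_ρ.apply_apply_eq_zero, ← hcl1, ρ_mk, hs1, sub_self])
  have hb1 : ∀ x, C.j (b x) = c (x, 0) - sl (C.dA n x) - C.j (h' (C.g n x)) :=
    fun x => LinearMap.congr_fun hb x
  have hbd : b ∘ₗ C.dA (n + 1) = 0 := by
    ext x
    apply C.j_inj
    have h1 := hc' (x, 0)
    simp only [d_apply, map_zero, add_zero] at h1
    rw [← Prod.fst_add_snd (C.dA (n + 1) x, C.g (n + 1) x), map_add, ← hh1, hh'1] at h1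
    have h2 := congrArg (fun y => C.j (h' y)) (C.hg n x)
    simp only [map_add, map_zero] at h2
    simp only [LinearMap.comp_apply, hb1, (C.An n).apply_apply_eq_zero, map_zero, sub_zero,
      LinearMap.zero_apply]
    linear_combination (norm := abel) h1 - h2
  obtain ⟨c0, c1', h2, c', e1, e2, e3⟩ := hsurj n b hbd
  have e1' : ∀ x, C.dA 0 (c1' x) = c0 (C.dA n x) := fun x => LinearMap.congr_fun e1 x
  have e2' : ∀ y, h2 (C.dB n y) = 0 := fun y => LinearMap.congr_fun e2 y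
  have e3' : ∀ x, b x + C.g' (c1' x) = c' (C.dA n x) + h2 (C.g n x) :=
    fun x => LinearMap.congr_fun e3 x
  refine ⟨(sl + C.qk ∘ₗ LinearMap.prod c0 c') ∘ₗ LinearMap.fst R _ _ +
    C.j ∘ₗ (h' + h2) ∘ₗ LinearMap.snd R _ _, ?_⟩
  refine LinearMap.ext fun x => ?_
  obtain ⟨x, y⟩ := x
  have key : C.qk (c0 (C.dA n x), c' (C.dA n x)) + C.j (h2 (C.g n x)) = C.j (b x) := by
    rw [j_apply, j_apply, ← map_add, ← sub_eq_zero, ← map_sub, mk_eq_zero]
    refine ⟨c1' x, by simp [e1'], ?_⟩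
    simp only [Prod.mk_add_mk, Prod.mk_sub_mk]
    rw [← e3']
    abel
  simp only [LinearMap.comp_apply, d_apply, LinearMap.add_apply, LinearMap.fst_apply,
    LinearMap.snd_apply, map_add, LinearMap.prod_apply, Function.prod, e2', map_zero, add_zero]
  rw [← Prod.fst_add_snd (x, y), map_add, ← hh1, hh'1]
  have := hb1 x
  rw [← key] at this
  linear_combination (norm := abel) -this

theorem section_of_projective [Module.Projective R C.M]
    (hBA : ∀ f : B 0 →ₗ[R] A 0, f = 0) : ∃ s : MB →ₗ[R] B 0, ∀ y, C.εB (s y) = y := by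
  obtain ⟨s, hs⟩ := Module.projective_lifting_property C.ε LinearMap.id C.ε_surj
  refine ⟨LinearMap.snd R _ _ ∘ₗ s ∘ₗ C.j, fun y => ?_⟩
  obtain ⟨b, rfl⟩ := C.εB_surj y
  have h1 : (s (C.j (C.εB b))).1 = 0 :=
    LinearMap.congr_fun (hBA (LinearMap.fst R _ _ ∘ₗ s ∘ₗ C.j ∘ₗ C.εB)) b
  apply C.j_inj
  have h2 : C.ε (s (C.j (C.εB b))) = C.j (C.εB b) := LinearMap.congr_fun hs _
  rw [ε_apply, h1] at h2
  exact h2

end ConeData

end Vale.Agent.P195
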