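import Vale.Agent.P195.L.Func
import Vale.Agent.P195.L.Cone

/-! Exactness properties of the functor `F`. -/

namespace Vale.Agent.P195

open Module LinearMap Function

variable {k E : Type} [Field k] [Ring E] [Algebra k E]

theorem factor_surj {R M N P : Type} [Ring R] [AddCommGroup M] [AddCommGroup N] [AddCommGroup P]
    [Module R M] [Module R N] [Module R P] (p : M →ₗ[R] N) (hp : Surjective p) (f : M →ₗ[R] P)
    (h : ∀ x, p x = 0 → f x = 0) : ∃ g : N →ₗ[R] P, ∀ x, g (p x) = f x := by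
  refine ⟨(LinearMap.ker p).liftQ f (fun x hx => h x hx) ∘ₗ
    (p.quotKerEquivOfSurjective hp).symm.toLinearMap, fun x => ?_⟩
  have : (p.quotKerEquivOfSurjective hp).symm (p x) = Submodule.Quotient.mk x := by
    rw [LinearEquiv.symm_apply_eq]
    rfl
  simp only [LinearMap.comp_apply, LinearEquiv.coe_coe, this]
  rfl

theorem factor_inj' {R M N P : Type} [Ring R] [AddCommGroup M] [AddCommGroup N] [AddCommGroup P]
    [Module R M] [Module R N] [Module R P] (i : M →ₗ[R] N) (hi : Injective i) (f : P →ₗ[R] N)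
    (h : ∀ x, ∃ y, i y = f x) : ∃ g : P →ₗ[R] M, ∀ x, i (g x) = f x := by
  obtain ⟨g, hg⟩ := ConeData.factor_inj i hi f h
  exact ⟨g, fun x => LinearMap.congr_fun hg x⟩

theorem klift {M N P : Type} [AddCommGroup M] [AddCommGroup N] [AddCommGroup P]
    [Module k M] [Module k N] [Module k P] (p : M →ₗ[k] N) (hp : Surjective p) (f : P →ₗ[k] N) :
    ∃ g : P →ₗ[k] M, ∀ x, p (g x) = f x := by
  obtain ⟨g, hg⟩ := Module.projective_lifting_property p f hp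
  exact ⟨g, fun x => LinearMap.congr_fun hg x⟩

theorem kextend {M N P : Type} [AddCommGroup M] [AddCommGroup N] [AddCommGroup P]
    [Module k M] [Module k N] [Module k P] (i : M →ₗ[k] N) (hi : Injective i) (f : M →ₗ[k] P) :
    ∃ g : N →ₗ[k] P, ∀ x, g (i x) = f x := by
  obtain ⟨r, hr⟩ := LinearMap.exists_leftInverse_of_injective i (LinearMap.ker_eq_bot.2 hi)
  refine ⟨f ∘ₗ r, fun x => ?_⟩
  have : r (i x) = x := LinearMap.congr_fun hr x
  simp [this]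

section

variable {M N P : Type} [AddCommGroup M] [AddCommGroup N]
  [AddCommGroup P] [Module k M] [Module k N] [Module k P] [Module E M] [Module E N] [Module E P]

theorem BLin.of_comp_inj {S : Set E} (i : M →ₗ[E] N) (hi : Injective i) {f : P →ₗ[k] N}
    (hf : BLin S f) {g : P →ₗ[k] M} (h : ∀ x, i (g x) = f x) : BLin S g := fun b hb x => by
  apply hi
  rw [h, map_smul i, h, hf b hb]

theorem BLin.of_comp_surj {S : Set E} (p : M →ₗ[E] N) (hp : Surjective p) {f : M →ₗ[k] P}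
    (hf : BLin S f) {g : N →ₗ[k] P} (h : ∀ x, g (p x) = f x) : BLin S g := fun b hb x => by
  obtain ⟨y, rfl⟩ := hp x
  rw [← map_smul, h, h, hf b hb]

theorem Semi.of_comp_inj {s : E → E} (i : M →ₗ[E] N) (hi : Injective i) {f : P →ₗ[k] N}
    (hf : Semi s f) {g : P →ₗ[k] M} (h : ∀ x, i (g x) = f x) : Semi s g := fun b x => by
  apply hi
  rw [h, map_smul i, h, hf b]

end

namespace Ctx

variable (K : Ctx k E) [FiniteDimensional k E]
variable {N N' N'' P P' : Type} [AddCommGroup N] [Module k N] [Module E N] [IsScalarTower k E N]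
  [AddCommGroup N'] [Module k N'] [Module E N'] [IsScalarTower k E N']
  [AddCommGroup N''] [Module k N''] [Module E N''] [IsScalarTower k E N'']
  [AddCommGroup P] [Module k P] [Module E P] [IsScalarTower k E P]
  [AddCommGroup P'] [Module k P'] [Module E P'] [IsScalarTower k E P']
  [FiniteDimensional k N] [FiniteDimensional k N'] [FiniteDimensional k N'']
  [FiniteDimensional k P] [FiniteDimensional k P']

theorem orth_lift (ι : N' →ₗ[E] N) (π : N →ₗ[E] N'') (hπ : Surjective π) (hex : Exact ι π)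
    {r₁ r₂ : P →ₗ[k] N''} (h : K.Orth r₁ r₂) :
    ∃ γ₁ γ₂ : P →ₗ[k] N, K.Orth γ₁ γ₂ ∧ (∀ x, π (γ₁ x) = r₁ x) ∧ ∀ x, π (γ₂ x) = r₂ x := by
  obtain ⟨g₁, hg₁⟩ := klift (π.restrictScalars k) hπ r₁
  obtain ⟨g₂, hg₂⟩ := klift (π.restrictScalars k) hπ r₂
  obtain ⟨ξ, hξ⟩ := core2 (S := K.S) (ι.restrictScalars k) (g₁ + g₂) (fun χ hχ h0 => by
    obtain ⟨χ', hχ'⟩ := factor_surj (π.restrictScalars k) hπ χ (fun x hx => by
      obtain ⟨y, rfl⟩ := (hex x).1 hx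
      exact LinearMap.congr_fun h0 y)
    have := h χ' (BLin.of_comp_surj π hπ hχ hχ')
    rw [← this]
    congr 1
    ext x
    simp only [LinearMap.comp_apply, LinearMap.add_apply, ← hg₁, ← hg₂, ← map_add, hχ'])
  refine ⟨g₁ + ι.restrictScalars k ∘ₗ ξ, g₂, fun χ hχ => ?_, fun x => ?_, hg₂⟩
  · rw [← hξ χ hχ]
    congr 2
    abel
  · have : π (g₁ x) = r₁ x := hg₁ x
    simp [hex.apply_apply_eq_zero, this]

theorem Fmap_surj (ι : N' →ₗ[E] N) (π : N →ₗ[E] N'') (hπ : Surjective π) (hex : Exact ι π) :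
    Surjective (K.Fmap π) := by
  intro ξ
  obtain ⟨ψ, hψ, hξ⟩ := K.exists_cls ξ
  obtain ⟨γ₁, γ₂, h0, h1, h2⟩ := K.orth_lift ι π hπ hex (r₁ := ψ.1.lin) (r₂ := ψ.2.lin) hψ
  refine ⟨⟨K.cls (J.of γ₁, J.of γ₂), (K.cls_mem_F _).2 h0⟩, Subtype.ext ?_⟩
  rw [Fmap_coe, ← hξ, Qmap_cls]
  congr 1
  ext x
  · exact h1 x
  · exact h2 x

omit [FiniteDimensional k N] [FiniteDimensional k N'] in
theorem Fmap_inj (ι : N' →ₗ[E] N) (hι : Injective ι) : Injective (K.Fmap ι) := by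
  rw [injective_iff_map_eq_zero]
  intro ξ h
  obtain ⟨ψ, -, hξ⟩ := K.exists_cls ξ
  have h1 := congrArg Subtype.val h
  rw [Fmap_coe, ← hξ, Qmap_cls, Submodule.coe_zero, ← K.cls_zero, cls_eq_iff] at h1
  apply Subtype.ext
  rw [← hξ, Submodule.coe_zero, ← K.cls_zero, cls_eq_iff]
  exact ⟨Semi.of_comp_inj ι hι h1.1 (fun x => by simp [JJmap]),
    Semi.of_comp_inj ι hι h1.2 (fun x => by simp [JJmap])⟩

omit [FiniteDimensional k N] [FiniteDimensional k N'] [FiniteDimensional k N''] in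
theorem Fmap_exact (ι : N' →ₗ[E] N) (hι : Injective ι) (π : N →ₗ[E] N'') (hπ : Surjective π)
    (hex : Exact ι π)
    (hext : ∀ f : N' →ₗ[k] E, BLin K.S f → ∃ g : N →ₗ[k] E, BLin K.S g ∧ ∀ y, g (ι y) = f y) :
    Exact (K.Fmap ι) (K.Fmap π) := by
  intro ξ
  constructor
  · intro h
    obtain ⟨ψ, hψ, hξ⟩ := K.exists_cls ξ
    have h1 := congrArg Subtype.val h
    rw [Fmap_coe, ← hξ, Qmap_cls, Submodule.coe_zero, ← K.cls_zero, cls_eq_iff] at h1
    obtain ⟨y₁, hy₁⟩ := hπ (π (ψ.1.lin 1))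
    let a₁ : E →ₗ[k] N := (LinearMap.toSpanSingleton E N (ψ.1.lin 1)).restrictScalars k
    let a₂ : E →ₗ[k] N := (LinearMap.toSpanSingleton E N (ψ.2.lin 1)).restrictScalars k ∘ₗ
      K.σ.toLinearMap
    have ha₁ : Semi (id : E → E) a₁ := Semi.of_lin _
    have ha₂ : Semi K.σ a₂ := fun e x => by simp [a₂, mul_smul]
    obtain ⟨φ₁, hφ₁⟩ := factor_inj' (ι.restrictScalars k) hι (ψ.1.lin - a₁) (fun x => by
      apply (hex _).1
      have := h1.1 x 1
      simp only [JJmap, LinearMap.prodMap_apply, Prod.fst_zero, J.lin_zero, sub_zero, smul_eq_mul,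
        mul_one, J.map_lin, LinearMap.restrictScalars_apply, id_eq] at this
      simp [a₁, this])
    obtain ⟨φ₂, hφ₂⟩ := factor_inj' (ι.restrictScalars k) hι (ψ.2.lin - a₂) (fun x => by
      apply (hex _).1
      have := h1.2 x 1
      simp only [JJmap, LinearMap.prodMap_apply, Prod.snd_zero, J.lin_zero, sub_zero, smul_eq_mul,
        mul_one, J.map_lin, LinearMap.restrictScalars_apply] at this
      simp [a₂, this])
    have hG : (J.of φ₁, J.of φ₂) ∈ K.G N' := by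
      intro f hf
      obtain ⟨g, hg, hgf⟩ := hext f hf
      have h2 := (K.G N).sub_mem hψ (K.U_le_G (show (J.of a₁, J.of a₂) ∈ K.U N from ⟨ha₁, ha₂⟩))
        g hg
      rw [← h2]
      congr 1
      ext x
      have e1 : ι (φ₁ x) = ψ.1.lin x - a₁ x := hφ₁ x
      have e2 : ι (φ₂ x) = ψ.2.lin x - a₂ x := hφ₂ x
      simp [← hgf, e1, e2]
    refine ⟨⟨K.cls (J.of φ₁, J.of φ₂), (K.cls_mem_F _).2 hG⟩, Subtype.ext ?_⟩
    rw [Fmap_coe, ← hξ, Qmap_cls, cls_eq_iff]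
    constructor
    · have : (JJmap ι (J.of φ₁, J.of φ₂)).1.lin - ψ.1.lin = 0 - a₁ := by
        ext x
        have e1 : ι (φ₁ x) = ψ.1.lin x - a₁ x := hφ₁ x
        simp [JJmap, e1]
      rw [this]
      exact Semi.zero.sub ha₁
    · have : (JJmap ι (J.of φ₁, J.of φ₂)).2.lin - ψ.2.lin = 0 - a₂ := by
        ext x
        have e2 : ι (φ₂ x) = ψ.2.lin x - a₂ x := hφ₂ x
        simp [JJmap, e2]
      rw [this]
      exact Semi.zero.sub ha₂
  · rintro ⟨η, rfl⟩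
    rw [← Fmap_comp, hex.linearMap_comp_eq_zero, Fmap_zero]

/-- Criterion for a map into `F N` to be a coboundary. -/
theorem cob {Y Y' : Type} [AddCommGroup Y] [Module k Y] [Module E Y] [IsScalarTower k E Y]
    [FiniteDimensional k Y] [AddCommGroup Y'] [Module k Y'] [Module E Y'] [IsScalarTower k E Y']
    [FiniteDimensional k Y'] (π : P' →ₗ[E] Y) (ι : Y →ₗ[E] P) (hι : Injective ι)
    (π₀ : P →ₗ[E] Y') (hex : Exact ι π₀) {c : P' →ₗ[E] K.F N} {ψ₁ ψ₂ : P' →ₗ[k] N}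
    (hc : K.Rep c ψ₁ ψ₂) (b₁ b₂ : P' →ₗ[k] N) (hb₁ : Semi (id : E → E) b₁) (hb₂ : Semi K.σ b₂)
    (θ₁ θ₂ : Y →ₗ[k] N) (h₁ : ∀ x, ψ₁ x = b₁ x + θ₁ (π x)) (h₂ : ∀ x, ψ₂ x = b₂ x + θ₂ (π x))
    (H : K.Orth θ₁ θ₂) : ∃ c' : P →ₗ[E] K.F N, c = c' ∘ₗ ι ∘ₗ π := by
  obtain ⟨φ₁, hφ₁⟩ := kextend (ι.restrictScalars k) hι θ₁
  obtain ⟨φ₂, hφ₂⟩ := kextend (ι.restrictScalars k) hι θ₂
  have e1 : ∀ y, φ₁ (ι y) = θ₁ y := hφ₁
  have e2 : ∀ y, φ₂ (ι y) = θ₂ y := hφ₂
  obtain ⟨ξ, hξ⟩ := core1 (S := K.S) (π₀.restrictScalars k) (φ₁ + φ₂) (fun χ hχ h0 => by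
    obtain ⟨χ₀, hχ₀⟩ := factor_inj' (ι.restrictScalars k) hι χ (fun x =>
      (hex _).1 (LinearMap.congr_fun h0 x))
    have h3 := H χ₀ (BLin.of_comp_inj ι hι hχ hχ₀)
    have h4 : χ = ι.restrictScalars k ∘ₗ χ₀ := by
      ext x
      exact (hχ₀ x).symm
    rw [h4, LinearMap.comp_assoc, trace_comp_comm', ← h3]
    congr 1
    ext x
    simp [e1, e2])
  have hO : K.Orth (φ₁ + ξ ∘ₗ π₀.restrictScalars k) φ₂ := fun χ hχ => by
    rw [← hξ χ hχ]
    congr 2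
    abel
  obtain ⟨c', hc'⟩ := K.exists_of_orth hO
  refine ⟨c', (Rep.eq_iff K hc (Rep.comp K hc' (ι ∘ₗ π))).2 ⟨?_, ?_⟩⟩
  · convert hb₁ using 1
    ext x
    simp [h₁, e1, hex.apply_apply_eq_zero]
  · convert hb₂ using 1
    ext x
    simp [h₂, e2]

end Ctx

end Vale.Agent.P195
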