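import Vale.Agent.P195.L.LinAlg

/-! The functor `F`. -/

namespace Vale.Agent.P195

open Module LinearMap Function

/-- The basic context: a subset `S` of `E` fixed by `σ` whose `S`-linear endomorphisms of `E`
have trace zero. -/
structure Ctx (k E : Type) [Field k] [Ring E] [Algebra k E] where
  S : Set E
  σ : E ≃ₐ[k] E
  fix : ∀ b ∈ S, σ b = b
  tr0 : ∀ f : E →ₗ[k] E, BLin S f → LinearMap.trace k E f = 0

/-- `Hom_k(E,N)` with the coinduced action. -/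
def J (k E N : Type) [Field k] [Ring E] [Algebra k E] [AddCommGroup N] [Module k N] : Type :=
  E →ₗ[k] N

variable {k E : Type} [Field k] [Ring E] [Algebra k E]

namespace J

variable {N N' P : Type} [AddCommGroup N] [Module k N] [AddCommGroup N'] [Module k N']
  [AddCommGroup P] [Module k P]

instance : AddCommGroup (J k E N) := inferInstanceAs (AddCommGroup (E →ₗ[k] N))
instance : Module k (J k E N) := inferInstanceAs (Module k (E →ₗ[k] N))

/-- The underlying linear map. -/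
def lin (ψ : J k E N) : E →ₗ[k] N := ψ
/-- The element given by a linear map. -/
def of (ψ : E →ₗ[k] N) : J k E N := ψ

@[simp] theorem lin_of (ψ : E →ₗ[k] N) : (of ψ).lin = ψ := rfl
@[simp] theorem lin_add (ψ φ : J k E N) : (ψ + φ).lin = ψ.lin + φ.lin := rfl
@[simp] theorem lin_sub (ψ φ : J k E N) : (ψ - φ).lin = ψ.lin - φ.lin := rfl
@[simp] theorem lin_zero : (0 : J k E N).lin = 0 := rfl
@[simp] theorem lin_smul (c : k) (ψ : J k E N) : (c • ψ).lin = c • ψ.lin := rfl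

@[ext] theorem ext {ψ φ : J k E N} (h : ∀ x, ψ.lin x = φ.lin x) : ψ = φ := LinearMap.ext h

instance : SMul E (J k E N) := ⟨fun t ψ => of (ψ.lin ∘ₗ LinearMap.mulRight k t)⟩

@[simp] theorem lin_esmul (t : E) (ψ : J k E N) (x : E) : (t • ψ).lin x = ψ.lin (x * t) := rfl

theorem lin_esmul' (t : E) (ψ : J k E N) : (t • ψ).lin = ψ.lin ∘ₗ LinearMap.mulRight k t := rfl

instance : Module E (J k E N) where
  one_smul ψ := by ext x; simp
  mul_smul s t ψ := by ext x; simp [mul_assoc]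
  smul_zero t := by ext x; simp
  smul_add t ψ φ := by ext x; simp
  add_smul s t ψ := by ext x; simp [mul_add]
  zero_smul ψ := by ext x; simp

instance : IsScalarTower k E (J k E N) := ⟨fun c t ψ => by ext x; simp⟩

theorem lin_sum {ι : Type} (s : Finset ι) (f : ι → J k E N) :
    (∑ i ∈ s, f i).lin = ∑ i ∈ s, (f i).lin := rfl

/-- Post-composition. -/
def map (h : N →ₗ[k] N') : J k E N →ₗ[E] J k E N' where
  toFun ψ := of (h ∘ₗ ψ.lin)
  map_add' ψ φ := by ext x; simp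
  map_smul' t ψ := by ext x; simp

@[simp] theorem map_lin (h : N →ₗ[k] N') (ψ : J k E N) (x : E) :
    (map h ψ : J k E N').lin x = h (ψ.lin x) := rfl

theorem map_lin' (h : N →ₗ[k] N') (ψ : J k E N) : (map h ψ : J k E N').lin = h ∘ₗ ψ.lin := rfl

variable [Module E P] [IsScalarTower k E P]

/-- The adjoint of a `k`-linear map. -/
def adj (ψ : P →ₗ[k] N) : P →ₗ[E] J k E N where
  toFun x := of (ψ ∘ₗ (LinearMap.toSpanSingleton E P x).restrictScalars k)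
  map_add' x y := by ext t; simp
  map_smul' s x := by ext t; simp [mul_smul]

@[simp] theorem adj_lin (ψ : P →ₗ[k] N) (x : P) (t : E) :
    (adj (E := E) ψ x).lin t = ψ (t • x) := rfl

end J

namespace Ctx

variable (K : Ctx k E)

section

variable (N : Type) [AddCommGroup N] [Module k N] [Module E N] [IsScalarTower k E N]

/-- The submodule of pairs (linear, semilinear). -/
def U : Submodule E (J k E N × J k E N) where
  carrier := {ψ | Semi (id : E → E) ψ.1.lin ∧ Semi K.σ ψ.2.lin}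
  add_mem' := fun h1 h2 => ⟨h1.1.add h2.1, h1.2.add h2.2⟩
  zero_mem' := ⟨Semi.zero, Semi.zero⟩
  smul_mem' := fun t ψ h => ⟨fun e x => by
      show ψ.1.lin (e * x * t) = id e • ψ.1.lin (x * t)
      rw [mul_assoc]
      exact h.1 e (x * t), fun e x => by
      show ψ.2.lin (e * x * t) = K.σ e • ψ.2.lin (x * t)
      rw [mul_assoc]
      exact h.2 e (x * t)⟩

theorem blin_mulRight (t : E) : BLin K.S (LinearMap.mulRight k t) := fun b _ x => by
  simp [mul_assoc]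

variable [FiniteDimensional k E]

/-- The submodule of pairs whose sum is trace-orthogonal to the `S`-linear maps. -/
def G : Submodule E (J k E N × J k E N) where
  carrier := {ψ | ∀ φ : N →ₗ[k] E, BLin K.S φ → trace k E (φ ∘ₗ (ψ.1.lin + ψ.2.lin)) = 0}
  add_mem' := fun {a b} h1 h2 φ hφ => by
    have : (a + b).1.lin + (a + b).2.lin = (a.1.lin + a.2.lin) + (b.1.lin + b.2.lin) := by
      simp only [Prod.fst_add, Prod.snd_add, J.lin_add]
      abel
    rw [this, LinearMap.comp_add, map_add, h1 φ hφ, h2 φ hφ, add_zero]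
  zero_mem' := fun φ _ => by simp
  smul_mem' := fun t ψ h φ hφ => by
    have : φ ∘ₗ ((t • ψ).1.lin + (t • ψ).2.lin) =
        (φ ∘ₗ (ψ.1.lin + ψ.2.lin)) ∘ₗ LinearMap.mulRight k t := by
      ext x; simp
    rw [this, trace_comp_comm', ← LinearMap.comp_assoc]
    exact h _ ((K.blin_mulRight t).comp hφ)

/-- The ambient quotient. -/
abbrev Q : Type := (J k E N × J k E N) ⧸ K.U N

/-- The functor `F` on objects. -/
def F : Submodule E (K.Q N) := (K.G N).map (K.U N).mkQ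

end

variable [FiniteDimensional k E]
variable {N N' N'' P P' : Type} [AddCommGroup N] [Module k N] [Module E N] [IsScalarTower k E N]
  [AddCommGroup N'] [Module k N'] [Module E N'] [IsScalarTower k E N']
  [AddCommGroup N''] [Module k N''] [Module E N''] [IsScalarTower k E N'']
  [AddCommGroup P] [Module k P] [Module E P] [IsScalarTower k E P]
  [AddCommGroup P'] [Module k P'] [Module E P'] [IsScalarTower k E P']

theorem U_le_G : K.U N ≤ K.G N := fun ψ h φ hφ =>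
  K.tr0 _ (hφ.comp ((h.1.blin (fun _ _ => rfl)).add (h.2.blin K.fix)))

/-- class of a pair -/
def cls (ψ : J k E N × J k E N) : K.Q N := (K.U N).mkQ ψ

theorem cls_eq_iff (ψ φ : J k E N × J k E N) :
    K.cls ψ = K.cls φ ↔ Semi (id : E → E) (ψ.1.lin - φ.1.lin) ∧ Semi K.σ (ψ.2.lin - φ.2.lin) :=
  Submodule.Quotient.eq _

theorem cls_mem_F (ψ : J k E N × J k E N) : K.cls ψ ∈ K.F N ↔ ψ ∈ K.G N := by
  constructor
  · rintro ⟨φ, hφ, h⟩
    have h1 : φ - ψ ∈ K.U N := (Submodule.Quotient.eq _).1 h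
    have h2 := (K.G N).sub_mem hφ (K.U_le_G h1)
    simpa using h2
  · intro h
    exact ⟨ψ, h, rfl⟩

theorem exists_cls (ξ : K.F N) : ∃ ψ ∈ K.G N, K.cls ψ = ξ := ξ.2

theorem cls_add (ψ φ : J k E N × J k E N) : K.cls (ψ + φ) = K.cls ψ + K.cls φ := rfl
theorem cls_esmul (t : E) (ψ : J k E N × J k E N) : K.cls (t • ψ) = t • K.cls ψ := rfl
theorem cls_zero : K.cls (0 : J k E N × J k E N) = 0 := rfl

/-- functoriality on pairs -/
def JJmap (h : N →ₗ[E] N') : J k E N × J k E N →ₗ[E] J k E N' × J k E N' :=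
  LinearMap.prodMap (J.map (h.restrictScalars k)) (J.map (h.restrictScalars k))

/-- functoriality on the ambient quotient -/
def Qmap (h : N →ₗ[E] N') : K.Q N →ₗ[E] K.Q N' :=
  (K.U N).mapQ (K.U N') (JJmap h) (fun _ hψ =>
    ⟨(Semi.of_lin h).comp hψ.1, (Semi.of_lin h).comp hψ.2⟩)

theorem Qmap_cls (h : N →ₗ[E] N') (ψ : J k E N × J k E N) :
    K.Qmap h (K.cls ψ) = K.cls (JJmap h ψ) := rfl

theorem JJmap_mem_G (h : N →ₗ[E] N') {ψ : J k E N × J k E N} (hψ : ψ ∈ K.G N) :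
    JJmap h ψ ∈ K.G N' := fun φ hφ => by
  have := hψ (φ ∘ₗ h.restrictScalars k) (hφ.comp (BLin.of_lin h))
  rw [← this]
  congr 1
  ext x
  simp [JJmap]

/-- The functor `F` on morphisms. -/
def Fmap (h : N →ₗ[E] N') : K.F N →ₗ[E] K.F N' :=
  (K.Qmap h).restrict (fun ξ hξ => by
    obtain ⟨ψ, hψ, rfl⟩ := hξ
    exact ⟨JJmap h ψ, K.JJmap_mem_G h hψ, rfl⟩)

theorem Fmap_coe (h : N →ₗ[E] N') (ξ : K.F N) : (K.Fmap h ξ : K.Q N') = K.Qmap h ξ := rfl

theorem Fmap_ext {h : N →ₗ[E] N'} {ξ : K.F N} {η : K.F N'}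
    (H : ∀ ψ, K.cls ψ = ξ → K.cls (JJmap h ψ) = η) : K.Fmap h ξ = η := by
  obtain ⟨ψ, -, hψ⟩ := K.exists_cls ξ
  apply Subtype.ext
  rw [Fmap_coe, ← hψ, Qmap_cls]
  exact H ψ hψ

theorem Fmap_comp (h : N →ₗ[E] N') (h' : N' →ₗ[E] N'') (ξ : K.F N) :
    K.Fmap (h' ∘ₗ h) ξ = K.Fmap h' (K.Fmap h ξ) := by
  refine K.Fmap_ext fun ψ hψ => ?_
  rw [Fmap_coe, Fmap_coe, ← hψ]
  rfl

theorem Fmap_id (ξ : K.F N) : K.Fmap LinearMap.id ξ = ξ := K.Fmap_ext fun ψ hψ => hψ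

theorem Fmap_add (h h' : N →ₗ[E] N') (ξ : K.F N) :
    K.Fmap (h + h') ξ = K.Fmap h ξ + K.Fmap h' ξ := by
  refine K.Fmap_ext fun ψ hψ => ?_
  rw [Submodule.coe_add, Fmap_coe, Fmap_coe, ← hψ, Qmap_cls, Qmap_cls, ← cls_add]
  congr 1

theorem Fmap_zero (ξ : K.F N) : K.Fmap (0 : N →ₗ[E] N') ξ = 0 := by
  refine K.Fmap_ext fun ψ _ => ?_
  rw [Submodule.coe_zero, ← cls_zero]
  congr 1

theorem Fmap_smul (c : k) (h : N →ₗ[E] N') (ξ : K.F N) :
    K.Fmap (c • h) ξ = c • K.Fmap h ξ := by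
  refine K.Fmap_ext fun ψ hψ => ?_
  rw [Submodule.coe_smul_of_tower, Fmap_coe, ← hψ, Qmap_cls]
  have : JJmap (c • h) ψ = c • JJmap h ψ := by
    ext x <;> simp [JJmap]
  rw [this]
  rfl

theorem Fmap_sum {ι : Type} (s : Finset ι) (h : ι → N →ₗ[E] N') (ξ : K.F N) :
    K.Fmap (∑ i ∈ s, h i) ξ = ∑ i ∈ s, K.Fmap (h i) ξ := by
  classical
  induction s using Finset.induction_on with
  | empty => simp [Fmap_zero]
  | insert a s ha ih => rw [Finset.sum_insert ha, Finset.sum_insert ha, Fmap_add, ih]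

instance [FiniteDimensional k N] : FiniteDimensional k (J k E N) :=
  inferInstanceAs (FiniteDimensional k (E →ₗ[k] N))

instance [FiniteDimensional k N] : FiniteDimensional k (K.Q N) :=
  Module.Finite.of_surjective (M := J k E N × J k E N) (σ := RingHom.id k)
    { toFun := K.cls, map_add' := fun _ _ => rfl, map_smul' := fun _ _ => rfl }
    (Submodule.mkQ_surjective (K.U N))

instance [FiniteDimensional k N] : FiniteDimensional k (K.F N) :=
  FiniteDimensional.of_injective (V₂ := K.Q N)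
    { toFun := Subtype.val, map_add' := fun _ _ => rfl, map_smul' := fun _ _ => rfl }
    Subtype.val_injective

/-- Orthogonality of a pair of `k`-linear maps. -/
def Orth (ψ₁ ψ₂ : P →ₗ[k] N) : Prop :=
  ∀ χ : N →ₗ[k] P, BLin K.S χ → trace k P (χ ∘ₗ (ψ₁ + ψ₂)) = 0

/-- The pair `(ψ₁, ψ₂)` represents `c`. -/
def Rep (c : P →ₗ[E] K.F N) (ψ₁ ψ₂ : P →ₗ[k] N) : Prop :=
  ∀ x, (c x : K.Q N) = K.cls (J.adj ψ₁ x, J.adj ψ₂ x)

theorem trace_blin [Module.Projective E P] [Module.Finite E P] [FiniteDimensional k P]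
    (f : P →ₗ[k] P) (hf : BLin K.S f) : trace k P f = 0 := by
  obtain ⟨n, x, l, hl⟩ := exists_dual_basis E P
  have : f = ∑ i, (f ∘ₗ (LinearMap.toSpanSingleton E P (x i)).restrictScalars k) ∘ₗ
      (l i).restrictScalars k := by
    ext v
    conv_lhs => rw [← hl v]
    simp [map_sum, LinearMap.sum_apply]
  rw [this, map_sum]
  refine Finset.sum_eq_zero fun i _ => ?_
  rw [trace_comp_comm']
  exact K.tr0 _ ((BLin.of_lin _).comp (hf.comp (BLin.of_lin _)))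

theorem Orth.adj_mem [FiniteDimensional k P] {ψ₁ ψ₂ : P →ₗ[k] N} (h : K.Orth ψ₁ ψ₂) (x : P) :
    (J.adj ψ₁ x, J.adj ψ₂ x) ∈ K.G N := fun φ hφ => by
  have h1 := h (((LinearMap.toSpanSingleton E P x).restrictScalars k) ∘ₗ φ)
    ((BLin.of_lin _).comp hφ)
  rw [LinearMap.comp_assoc, trace_comp_comm'] at h1
  rw [← h1]
  congr 1

theorem exists_of_orth [FiniteDimensional k P] {ψ₁ ψ₂ : P →ₗ[k] N} (h : K.Orth ψ₁ ψ₂) :
    ∃ c : P →ₗ[E] K.F N, K.Rep c ψ₁ ψ₂ :=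
  ⟨LinearMap.codRestrict (K.F N) ((K.U N).mkQ ∘ₗ LinearMap.prod (J.adj ψ₁) (J.adj ψ₂))
    (fun x => (K.cls_mem_F _).2 (Orth.adj_mem K h x)), fun _ => rfl⟩

theorem Rep.orth [Module.Projective E P] [Module.Finite E P] [FiniteDimensional k P]
    {c : P →ₗ[E] K.F N} {ψ₁ ψ₂ : P →ₗ[k] N} (h : K.Rep c ψ₁ ψ₂) : K.Orth ψ₁ ψ₂ := by
  intro χ hχ
  obtain ⟨n, x, l, hl⟩ := exists_dual_basis E P
  have : χ ∘ₗ (ψ₁ + ψ₂) = ∑ i, ((χ ∘ₗ (ψ₁ + ψ₂)) ∘ₗ
      (LinearMap.toSpanSingleton E P (x i)).restrictScalars k) ∘ₗ (l i).restrictScalars k := by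
    ext v
    conv_lhs => rw [← hl v]
    simp [map_sum, LinearMap.sum_apply, Finset.sum_add_distrib]
  rw [this, map_sum]
  refine Finset.sum_eq_zero fun i _ => ?_
  rw [trace_comp_comm']
  have hm : (J.adj ψ₁ (x i), J.adj ψ₂ (x i)) ∈ K.G N := by
    rw [← K.cls_mem_F, ← h]
    exact (c (x i)).2
  have := hm (((l i).restrictScalars k) ∘ₗ χ) ((BLin.of_lin _).comp hχ)
  rw [← this]
  congr 1

theorem exists_rep [Module.Projective E P] [Module.Finite E P] (c : P →ₗ[E] K.F N) :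
    ∃ ψ₁ ψ₂ : P →ₗ[k] N, K.Rep c ψ₁ ψ₂ := by
  obtain ⟨n, x, l, hl⟩ := exists_dual_basis E P
  choose ψ _ hψ using fun i => K.exists_cls (c (x i))
  refine ⟨∑ i, (ψ i).1.lin ∘ₗ (l i).restrictScalars k,
    ∑ i, (ψ i).2.lin ∘ₗ (l i).restrictScalars k, fun v => ?_⟩
  have h1 : (J.adj (∑ i, (ψ i).1.lin ∘ₗ (l i).restrictScalars k) v,
      J.adj (∑ i, (ψ i).2.lin ∘ₗ (l i).restrictScalars k) v) = ∑ i, l i v • ψ i := by
    ext t
    · simp [Prod.fst_sum, J.lin_sum, LinearMap.sum_apply]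
    · simp [Prod.snd_sum, J.lin_sum, LinearMap.sum_apply]
  rw [h1]
  conv_lhs => rw [← hl v]
  simp only [map_sum, map_smul, Submodule.coe_sum, Submodule.coe_smul, ← hψ, cls]

theorem Rep.eq_iff {c c' : P →ₗ[E] K.F N} {ψ₁ ψ₂ φ₁ φ₂ : P →ₗ[k] N} (h : K.Rep c ψ₁ ψ₂)
    (h' : K.Rep c' φ₁ φ₂) : c = c' ↔ Semi (id : E → E) (ψ₁ - φ₁) ∧ Semi K.σ (ψ₂ - φ₂) := by
  constructor
  · rintro rfl
    have h1 := fun x => (K.cls_eq_iff _ _).1 ((h x).symm.trans (h' x))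
    refine ⟨fun e x => ?_, fun e x => ?_⟩
    · simpa using (h1 x).1 e 1
    · simpa using (h1 x).2 e 1
  · rintro ⟨h1, h2⟩
    ext x
    rw [h x, h' x, cls_eq_iff]
    refine ⟨fun e t => ?_, fun e t => ?_⟩
    · simpa [mul_smul] using h1 e (t • x)
    · simpa [mul_smul] using h2 e (t • x)

theorem rep_zero : K.Rep (0 : P →ₗ[E] K.F N) 0 0 := fun _ => rfl

theorem Rep.eq_zero_iff {c : P →ₗ[E] K.F N} {ψ₁ ψ₂ : P →ₗ[k] N} (h : K.Rep c ψ₁ ψ₂) :
    c = 0 ↔ Semi (id : E → E) ψ₁ ∧ Semi K.σ ψ₂ := by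
  simpa using Rep.eq_iff K h K.rep_zero

theorem Rep.add {c c' : P →ₗ[E] K.F N} {ψ₁ ψ₂ φ₁ φ₂ : P →ₗ[k] N} (h : K.Rep c ψ₁ ψ₂)
    (h' : K.Rep c' φ₁ φ₂) : K.Rep (c + c') (ψ₁ + φ₁) (ψ₂ + φ₂) := fun x => by
  rw [LinearMap.add_apply, Submodule.coe_add, h x, h' x, ← cls_add]
  congr 1

theorem Rep.comp {c : P →ₗ[E] K.F N} {ψ₁ ψ₂ : P →ₗ[k] N} (h : K.Rep c ψ₁ ψ₂) (u : P' →ₗ[E] P) :
    K.Rep (c ∘ₗ u) (ψ₁ ∘ₗ u.restrictScalars k) (ψ₂ ∘ₗ u.restrictScalars k) := fun x => by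
  rw [LinearMap.comp_apply, h]
  congr 1
  ext t <;> simp

theorem Rep.map {c : P →ₗ[E] K.F N} {ψ₁ ψ₂ : P →ₗ[k] N} (h : K.Rep c ψ₁ ψ₂) (u : N →ₗ[E] N') :
    K.Rep (K.Fmap u ∘ₗ c) (u.restrictScalars k ∘ₗ ψ₁) (u.restrictScalars k ∘ₗ ψ₂) := fun x => by
  rw [LinearMap.comp_apply, Fmap_coe, h, Qmap_cls]
  congr 1

end Ctx

end Vale.Agent.P195
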