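import Vale.Agent.P195.Basic

namespace Vale.Agent.P195

open Module LinearMap

variable {k : Type} [Field k]

/-- Every functional on `Hom(W,V)` is given by the trace pairing. -/
theorem exists_trace_repr {V W : Type} [AddCommGroup V] [Module k V] [FiniteDimensional k V]
    [AddCommGroup W] [Module k W] [FiniteDimensional k W] (Φ : (W →ₗ[k] V) →ₗ[k] k) :
    ∃ ξ : V →ₗ[k] W, ∀ χ : W →ₗ[k] V, Φ χ = trace k V (χ ∘ₗ ξ) := by
  classical
  let b := Module.finBasis k W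
  -- ξ v = ∑ i, Φ (b.coord i ⊗ v) • b i
  let ξ : V →ₗ[k] W := ∑ i, (Φ ∘ₗ (LinearMap.smulRightₗ (b.coord i))).smulRight (b i)
  refine ⟨ξ, fun χ => ?_⟩
  have hχ : χ = ∑ i, (b.coord i).smulRight (χ (b i)) := by
    refine b.ext fun j => ?_
    simp [LinearMap.sum_apply, Finsupp.single_apply]
  have h1 : χ ∘ₗ ξ = ∑ i, (Φ ∘ₗ (LinearMap.smulRightₗ (b.coord i))).smulRight (χ (b i)) := by
    ext v
    simp [ξ, LinearMap.sum_apply, map_sum]
  rw [h1, map_sum]
  conv_lhs => rw [hχ, map_sum]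
  refine Finset.sum_congr rfl fun i _ => ?_
  rw [LinearMap.trace_smulRight]
  rfl

theorem exists_functional_extend {V V' : Type} [AddCommGroup V] [Module k V] [AddCommGroup V']
    [Module k V'] (U : Submodule k V) (L : V →ₗ[k] V') (Φ : V →ₗ[k] k)
    (h : ∀ u ∈ U, L u = 0 → Φ u = 0) : ∃ Φ' : V' →ₗ[k] k, ∀ u ∈ U, Φ u = Φ' (L u) := by
  have hle : LinearMap.ker (L ∘ₗ U.subtype) ≤ LinearMap.ker (Φ ∘ₗ U.subtype) := by
    intro u hu
    exact h u.1 u.2 hu
  have hm : (Φ ∘ₗ U.subtype) ∈ (LinearMap.ker (L ∘ₗ U.subtype)).dualAnnihilator := by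
    rw [Submodule.mem_dualAnnihilator]
    intro w hw
    exact hle hw
  rw [← LinearMap.range_dualMap_eq_dualAnnihilator_ker] at hm
  obtain ⟨Φ', hΦ'⟩ := hm
  refine ⟨Φ', fun u hu => ?_⟩
  have := LinearMap.congr_fun hΦ' ⟨u, hu⟩
  simpa using this.symm

section

variable {E : Type} [Ring E] {M N P : Type} [AddCommGroup M] [AddCommGroup N] [AddCommGroup P]
  [Module k M] [Module k N] [Module k P] [Module E M] [Module E N] [Module E P]

theorem BLin.comp {S : Set E} {g : N →ₗ[k] P} {f : M →ₗ[k] N} (hg : BLin S g) (hf : BLin S f) :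
    BLin S (g ∘ₗ f) := fun b hb x => by
  simp only [LinearMap.comp_apply]
  rw [hf b hb, hg b hb]

theorem BLin.add {S : Set E} {f g : M →ₗ[k] N} (hf : BLin S f) (hg : BLin S g) :
    BLin S (f + g) := fun b hb x => by
  simp only [LinearMap.add_apply]
  rw [hf b hb, hg b hb, smul_add]

theorem BLin.zero {S : Set E} : BLin S (0 : M →ₗ[k] N) := fun b _ x => by simp

theorem BLin.id {S : Set E} : BLin S (LinearMap.id : M →ₗ[k] M) := fun b _ x => by simp

theorem Semi.comp {s t : E → E} {g : N →ₗ[k] P} {f : M →ₗ[k] N} (hg : Semi s g) (hf : Semi t f) :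
    Semi (s ∘ t) (g ∘ₗ f) := fun e x => by
  simp only [LinearMap.comp_apply]
  rw [hf, hg]
  rfl

theorem Semi.add {s : E → E} {f g : M →ₗ[k] N} (hf : Semi s f) (hg : Semi s g) :
    Semi s (f + g) := fun e x => by
  simp only [LinearMap.add_apply]
  rw [hf, hg, smul_add]

theorem Semi.sub {s : E → E} {f g : M →ₗ[k] N} (hf : Semi s f) (hg : Semi s g) :
    Semi s (f - g) := fun e x => by
  simp only [LinearMap.sub_apply]
  rw [hf, hg, smul_sub]

theorem Semi.zero {s : E → E} : Semi s (0 : M →ₗ[k] N) := fun e x => by simp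

theorem Semi.id : Semi (_root_.id : E → E) (LinearMap.id : M →ₗ[k] M) := fun e x => by simp

theorem Semi.blin {S : Set E} {s : E → E} (hs : ∀ b ∈ S, s b = b) {f : M →ₗ[k] N}
    (hf : Semi s f) : BLin S f := fun b hb x => by rw [hf, hs b hb]

end

section

variable {E : Type} [Ring E] [Algebra k E] {M N P : Type} [AddCommGroup M] [AddCommGroup N]
  [AddCommGroup P] [Module k M] [Module k N] [Module k P] [Module E M] [Module E N] [Module E P]
  [IsScalarTower k E M] [IsScalarTower k E N] [IsScalarTower k E P]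

theorem BLin.smul {S : Set E} (c : k) {f : M →ₗ[k] N} (hf : BLin S f) : BLin S (c • f) :=
  fun b hb x => by
    simp only [LinearMap.smul_apply]
    rw [hf b hb, smul_comm]

theorem Semi.smul {s : E → E} (c : k) {f : M →ₗ[k] N} (hf : Semi s f) : Semi s (c • f) :=
  fun e x => by
    simp only [LinearMap.smul_apply]
    rw [hf, smul_comm]

theorem Semi.of_lin (f : M →ₗ[E] N) : Semi (_root_.id : E → E) (f.restrictScalars k) :=
  fun e x => by simp

theorem BLin.of_lin {S : Set E} (f : M →ₗ[E] N) : BLin S (f.restrictScalars k) :=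
  fun e _ x => by simp

/-- The `E`-linear map underlying a `k`-linear map commuting with `E`. -/
def Semi.toLin {f : M →ₗ[k] N} (hf : Semi (_root_.id : E → E) f) : M →ₗ[E] N where
  toFun := f
  map_add' := f.map_add
  map_smul' := hf

omit [Algebra k E] [IsScalarTower k E M] [IsScalarTower k E N] in
@[simp] theorem Semi.toLin_apply {f : M →ₗ[k] N} (hf : Semi (_root_.id : E → E) f) (x : M) :
    hf.toLin x = f x := rfl

variable (k M N) in
/-- The `S`-linear maps as a subspace. -/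
def BSub (S : Set E) : Submodule k (M →ₗ[k] N) where
  carrier := {f | BLin S f}
  add_mem' := fun hf hg => BLin.add hf hg
  zero_mem' := BLin.zero
  smul_mem' := fun c _ hf => BLin.smul c hf

variable [FiniteDimensional k M] [FiniteDimensional k N] [FiniteDimensional k P]

/-- Correct `ψ : P → N` by a map through `π : P → M`. -/
theorem core1 {S : Set E} (π : P →ₗ[k] M) (ψ : P →ₗ[k] N)
    (h : ∀ χ : N →ₗ[k] P, BLin S χ → π ∘ₗ χ = 0 → trace k P (χ ∘ₗ ψ) = 0) :
    ∃ ξ : M →ₗ[k] N, ∀ χ : N →ₗ[k] P, BLin S χ → trace k P (χ ∘ₗ (ψ + ξ ∘ₗ π)) = 0 := by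
  obtain ⟨Φ', hΦ'⟩ := exists_functional_extend (BSub k N P S) (LinearMap.llcomp k N P M π)
    (trace k P ∘ₗ (LinearMap.lcomp k P ψ)) (fun u hu h0 => h u hu h0)
  obtain ⟨ξ, hξ⟩ := exists_trace_repr Φ'
  refine ⟨-ξ, fun χ hχ => ?_⟩
  have h1 := hΦ' χ hχ
  rw [hξ] at h1
  have h2 : trace k P (χ ∘ₗ ψ) = trace k M ((π ∘ₗ χ) ∘ₗ ξ) := h1
  rw [LinearMap.comp_add, map_add, h2, LinearMap.neg_comp, LinearMap.comp_neg, map_neg,
    ← LinearMap.comp_assoc, trace_comp_comm' π (χ ∘ₗ ξ), LinearMap.comp_assoc]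
  simp

/-- Correct `ψ : P → N` by a map through `ι : M → N`. -/
theorem core2 {S : Set E} (ι : M →ₗ[k] N) (ψ : P →ₗ[k] N)
    (h : ∀ χ : N →ₗ[k] P, BLin S χ → χ ∘ₗ ι = 0 → trace k P (χ ∘ₗ ψ) = 0) :
    ∃ ξ : P →ₗ[k] M, ∀ χ : N →ₗ[k] P, BLin S χ → trace k P (χ ∘ₗ (ψ + ι ∘ₗ ξ)) = 0 := by
  obtain ⟨Φ', hΦ'⟩ := exists_functional_extend (BSub k N P S) (LinearMap.lcomp k P ι)
    (trace k P ∘ₗ (LinearMap.lcomp k P ψ)) (fun u hu h0 => h u hu h0)
  obtain ⟨ξ, hξ⟩ := exists_trace_repr Φ'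
  refine ⟨-ξ, fun χ hχ => ?_⟩
  have h1 := hΦ' χ hχ
  rw [hξ] at h1
  have h2 : trace k P (χ ∘ₗ ψ) = trace k P ((χ ∘ₗ ι) ∘ₗ ξ) := h1
  rw [LinearMap.comp_add, map_add, h2, LinearMap.comp_neg, LinearMap.comp_neg, map_neg,
    LinearMap.comp_assoc]
  simp

end

end Vale.Agent.P195
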