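import Vale.Agent.P195.L.Exact

/-! The triangular algebra and its modules. -/

namespace Vale.Agent.P195

open Module LinearMap Function

variable {k E : Type} [Field k] [Ring E] [Algebra k E]

namespace Ctx

variable (K : Ctx k E) [FiniteDimensional k E]

/-- The triangular algebra. -/
@[ext] structure Lam where
  s : E
  f : K.F E
  t : E

/-- The module `(N,0)`. -/
def AM (_K : Ctx k E) (N : Type) : Type := N

/-- The module `(F N, N)`. -/
def BM (N : Type) [AddCommGroup N] [Module k N] [Module E N] [IsScalarTower k E N] : Type :=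
  K.F N × N

variable {N N' N'' : Type} [AddCommGroup N] [Module k N] [Module E N] [IsScalarTower k E N]
  [AddCommGroup N'] [Module k N'] [Module E N'] [IsScalarTower k E N']
  [AddCommGroup N''] [Module k N''] [Module E N''] [IsScalarTower k E N'']

/-- `F` applied to `x ↦ x • y`. -/
def act (φ : K.F E) (y : N) : K.F N := K.Fmap (LinearMap.toSpanSingleton E N y) φ

theorem act_add_left (φ φ' : K.F E) (y : N) : K.act (φ + φ') y = K.act φ y + K.act φ' y :=
  map_add _ _ _

theorem act_smul_left (e : E) (φ : K.F E) (y : N) : K.act (e • φ) y = e • K.act φ y :=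
  map_smul _ _ _

theorem act_ksmul_left (c : k) (φ : K.F E) (y : N) : K.act (c • φ) y = c • K.act φ y :=
  LinearMap.map_smul_of_tower _ _ _

theorem act_zero_left (y : N) : K.act 0 y = 0 := map_zero _

theorem act_add_right (φ : K.F E) (y y' : N) : K.act φ (y + y') = K.act φ y + K.act φ y' := by
  rw [act, act, act, ← Fmap_add]
  congr 2
  ext
  simp

theorem act_zero_right (φ : K.F E) : K.act φ (0 : N) = 0 := by
  rw [act, LinearMap.toSpanSingleton_zero, Fmap_zero]

theorem act_ksmul_right (c : k) (φ : K.F E) (y : N) : K.act φ (c • y) = c • K.act φ y := by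
  rw [act, act, ← Fmap_smul]
  congr 2
  ext
  simp

theorem Fmap_act (h : N →ₗ[E] N') (φ : K.F E) (y : N) : K.Fmap h (K.act φ y) = K.act φ (h y) := by
  rw [act, act, ← Fmap_comp]
  congr 2
  ext
  simp

theorem act_act (φ : K.F E) (t : E) (y : N) : K.act (K.act φ t) y = K.act φ (t • y) := by
  rw [act, Fmap_act]
  simp

theorem act_one (φ : K.F E) : K.act φ (1 : E) = φ := by
  rw [act]
  have : LinearMap.toSpanSingleton E E 1 = LinearMap.id := by
    ext
    simp
  rw [this, Fmap_id]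

namespace Lam

variable {K}

/-- Equivalence with the product. -/
def equivProd : K.Lam ≃ E × K.F E × E where
  toFun a := (a.s, a.f, a.t)
  invFun a := ⟨a.1, a.2.1, a.2.2⟩
  left_inv _ := rfl
  right_inv _ := rfl

instance : AddCommGroup K.Lam := equivProd.addCommGroup
instance : Module k K.Lam := equivProd.module k

@[simp] theorem add_s (a b : K.Lam) : (a + b).s = a.s + b.s := rfl
@[simp] theorem add_f (a b : K.Lam) : (a + b).f = a.f + b.f := rfl
@[simp] theorem add_t (a b : K.Lam) : (a + b).t = a.t + b.t := rfl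
@[simp] theorem zero_s : (0 : K.Lam).s = 0 := rfl
@[simp] theorem zero_f : (0 : K.Lam).f = 0 := rfl
@[simp] theorem zero_t : (0 : K.Lam).t = 0 := rfl
@[simp] theorem smul_s (c : k) (a : K.Lam) : (c • a).s = c • a.s := rfl
@[simp] theorem smul_f (c : k) (a : K.Lam) : (c • a).f = c • a.f := rfl
@[simp] theorem smul_t (c : k) (a : K.Lam) : (c • a).t = c • a.t := rfl

instance : Mul K.Lam := ⟨fun a b => ⟨a.s * b.s, a.s • b.f + K.act a.f b.t, a.t * b.t⟩⟩
instance : One K.Lam := ⟨⟨1, 0, 1⟩⟩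

@[simp] theorem mul_s (a b : K.Lam) : (a * b).s = a.s * b.s := rfl
@[simp] theorem mul_f (a b : K.Lam) : (a * b).f = a.s • b.f + K.act a.f b.t := rfl
@[simp] theorem mul_t (a b : K.Lam) : (a * b).t = a.t * b.t := rfl
@[simp] theorem one_s : (1 : K.Lam).s = 1 := rfl
@[simp] theorem one_f : (1 : K.Lam).f = 0 := rfl
@[simp] theorem one_t : (1 : K.Lam).t = 1 := rfl

instance : Ring K.Lam where
  __ := (inferInstance : AddCommGroup K.Lam)
  left_distrib a b c := by
    refine Lam.ext ?_ ?_ ?_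
    · simp [mul_add]
    · simp only [mul_f, add_f, add_t, smul_add, act_add_right]
      abel
    · simp [mul_add]
  right_distrib a b c := by
    refine Lam.ext ?_ ?_ ?_
    · simp [add_mul]
    · simp only [mul_f, add_f, add_s, add_smul, act_add_left]
      abel
    · simp [add_mul]
  zero_mul a := by
    refine Lam.ext ?_ ?_ ?_ <;> simp [act_zero_left]
  mul_zero a := by
    refine Lam.ext ?_ ?_ ?_ <;> simp [act_zero_right]
  mul_assoc a b c := by
    refine Lam.ext ?_ ?_ ?_
    · simp [mul_assoc]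
    · simp only [mul_f, mul_s, mul_t, mul_smul, smul_add, act_add_left, act_smul_left, act_act,
        smul_eq_mul]
      abel
    · simp [mul_assoc]
  one_mul a := by
    refine Lam.ext ?_ ?_ ?_ <;> simp [act_zero_left]
  mul_one a := by
    refine Lam.ext ?_ ?_ ?_ <;> simp [act_one]

instance : Algebra k K.Lam := Algebra.ofModule
  (fun c a b => by
    refine Lam.ext ?_ ?_ ?_
    · simp
    · simp only [mul_f, smul_s, smul_f, smul_add, act_ksmul_left, smul_assoc]
    · simp)
  (fun c a b => by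
    refine Lam.ext ?_ ?_ ?_
    · simp
    · simp only [mul_f, smul_t, smul_f, smul_add, act_ksmul_right, smul_comm c a.s b.f]
    · simp)

instance : FiniteDimensional k K.Lam :=
  FiniteDimensional.of_injective (V₂ := E × K.F E × E)
    { toFun := equivProd, map_add' := fun _ _ => rfl, map_smul' := fun _ _ => rfl }
    equivProd.injective

end Lam

instance : AddCommGroup (K.AM N) := inferInstanceAs (AddCommGroup N)
instance : AddCommGroup (K.BM N) := inferInstanceAs (AddCommGroup (K.F N × N))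

/-- underlying element -/
def AM.v {K : Ctx k E} {N : Type} (x : K.AM N) : N := x
/-- constructor -/
def toA (x : N) : K.AM N := x
/-- first component -/
def BM.f {K : Ctx k E} (x : K.BM N) : K.F N := x.1
/-- second component -/
def BM.y {K : Ctx k E} (x : K.BM N) : N := x.2
/-- constructor -/
def toB (ξ : K.F N) (y : N) : K.BM N := (ξ, y)

omit [FiniteDimensional k E] [AddCommGroup N] [Module k N] [Module E N] [IsScalarTower k E N] in
@[ext] theorem AM.ext {x y : K.AM N} (h : x.v = y.v) : x = y := h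
theorem BM.ext {x y : K.BM N} (h : x.f = y.f) (h' : x.y = y.y) : x = y := Prod.ext h h'

@[simp] theorem toA_v (x : N) : (K.toA x).v = x := rfl
@[simp] theorem v_toA (x : K.AM N) : K.toA x.v = x := rfl
@[simp] theorem toB_f (ξ : K.F N) (y : N) : (K.toB ξ y).f = ξ := rfl
@[simp] theorem toB_y (ξ : K.F N) (y : N) : (K.toB ξ y).y = y := rfl
@[simp] theorem AM.add_v (x y : K.AM N) : (x + y).v = x.v + y.v := rfl
@[simp] theorem AM.zero_v : (0 : K.AM N).v = 0 := rfl
@[simp] theorem BM.add_f (x y : K.BM N) : (x + y).f = x.f + y.f := rfl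
@[simp] theorem BM.add_y (x y : K.BM N) : (x + y).y = x.y + y.y := rfl
@[simp] theorem BM.zero_f : (0 : K.BM N).f = 0 := rfl
@[simp] theorem BM.zero_y : (0 : K.BM N).y = 0 := rfl

instance : SMul K.Lam (K.AM N) := ⟨fun a x => K.toA (a.s • x.v)⟩
instance : SMul K.Lam (K.BM N) := ⟨fun a x => K.toB (a.s • x.f + K.act a.f x.y) (a.t • x.y)⟩

@[simp] theorem AM.smul_v (a : K.Lam) (x : K.AM N) : (a • x).v = a.s • x.v := rfl
@[simp] theorem BM.smul_f (a : K.Lam) (x : K.BM N) :
    (a • x).f = a.s • x.f + K.act a.f x.y := rfl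
@[simp] theorem BM.smul_y (a : K.Lam) (x : K.BM N) : (a • x).y = a.t • x.y := rfl

instance : Module K.Lam (K.AM N) where
  one_smul x := by ext; simp
  mul_smul a b x := by ext; simp [mul_smul]
  smul_zero a := by ext; simp
  smul_add a x y := by ext; simp
  add_smul a b x := by ext; simp [add_smul]
  zero_smul x := by ext; simp

instance : Module K.Lam (K.BM N) where
  one_smul x := by refine BM.ext K ?_ ?_ <;> simp [act_zero_left]
  mul_smul a b x := by
    refine BM.ext K ?_ ?_
    · simp only [BM.smul_f, BM.smul_y, Lam.mul_s, Lam.mul_f, mul_smul, smul_add, act_add_left,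
        act_smul_left, act_act]
      abel
    · simp [mul_smul]
  smul_zero a := by refine BM.ext K ?_ ?_ <;> simp [act_zero_right]
  smul_add a x y := by
    refine BM.ext K ?_ ?_
    · simp only [BM.smul_f, BM.add_f, BM.add_y, smul_add, act_add_right]
      abel
    · simp
  add_smul a b x := by
    refine BM.ext K ?_ ?_
    · simp only [BM.smul_f, BM.add_f, Lam.add_s, Lam.add_f, add_smul, act_add_left]
      abel
    · simp [add_smul]
  zero_smul x := by refine BM.ext K ?_ ?_ <;> simp [act_zero_left]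

/-- `a` on morphisms -/
def amap (h : N →ₗ[E] N') : K.AM N →ₗ[K.Lam] K.AM N' where
  toFun x := K.toA (h x.v)
  map_add' x y := by ext; simp
  map_smul' a x := by ext; simp

/-- `b` on morphisms -/
def bmap (h : N →ₗ[E] N') : K.BM N →ₗ[K.Lam] K.BM N' where
  toFun x := K.toB (K.Fmap h x.f) (h x.y)
  map_add' x y := by refine BM.ext K ?_ ?_ <;> simp
  map_smul' a x := by refine BM.ext K ?_ ?_ <;> simp [Fmap_act]

/-- morphisms from `a` to `b` -/
def cmap (c : N →ₗ[E] K.F N') : K.AM N →ₗ[K.Lam] K.BM N' where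
  toFun x := K.toB (c x.v) 0
  map_add' x y := by refine BM.ext K ?_ ?_ <;> simp
  map_smul' a x := by refine BM.ext K ?_ ?_ <;> simp [act_zero_right]

@[simp] theorem amap_v (h : N →ₗ[E] N') (x : K.AM N) : (K.amap h x).v = h x.v := rfl
@[simp] theorem bmap_f (h : N →ₗ[E] N') (x : K.BM N) : (K.bmap h x).f = K.Fmap h x.f := rfl
@[simp] theorem bmap_y (h : N →ₗ[E] N') (x : K.BM N) : (K.bmap h x).y = h x.y := rfl
@[simp] theorem cmap_f (c : N →ₗ[E] K.F N') (x : K.AM N) : (K.cmap c x).f = c x.v := rfl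
@[simp] theorem cmap_y (c : N →ₗ[E] K.F N') (x : K.AM N) : (K.cmap c x).y = 0 := rfl

theorem exists_amap (Ψ : K.AM N →ₗ[K.Lam] K.AM N') : ∃ h : N →ₗ[E] N', Ψ = K.amap h := by
  refine ⟨⟨⟨fun x => (Ψ (K.toA x)).v, fun x y => ?_⟩, fun e x => ?_⟩, ?_⟩
  · have : K.toA (x + y) = K.toA x + K.toA y := rfl
    rw [this, map_add]
    rfl
  · have : K.toA (e • x) = (⟨e, 0, 0⟩ : K.Lam) • K.toA x := rfl
    simp only [this, map_smul, AM.smul_v, RingHom.id_apply]
  · ext x
    rfl

theorem exists_cmap (Ψ : K.AM N →ₗ[K.Lam] K.BM N') : ∃ c : N →ₗ[E] K.F N', Ψ = K.cmap c := by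
  refine ⟨⟨⟨fun x => (Ψ (K.toA x)).f, fun x y => ?_⟩, fun e x => ?_⟩, ?_⟩
  · have : K.toA (x + y) = K.toA x + K.toA y := rfl
    rw [this, map_add]
    rfl
  · have : K.toA (e • x) = (⟨e, 0, 0⟩ : K.Lam) • K.toA x := rfl
    simp only [this, map_smul, BM.smul_f, RingHom.id_apply, act_zero_left, add_zero]
  · refine LinearMap.ext fun x => BM.ext K rfl ?_
    have : x = (⟨1, 0, 0⟩ : K.Lam) • x := by
      ext
      simp
    rw [this, map_smul]
    simp

theorem BM.sum_f {ι : Type} (s : Finset ι) (x : ι → K.BM N) :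
    (∑ i ∈ s, x i).f = ∑ i ∈ s, (x i).f := Prod.fst_sum

theorem BM.sum_y {ι : Type} (s : Finset ι) (x : ι → K.BM N) :
    (∑ i ∈ s, x i).y = ∑ i ∈ s, (x i).y := Prod.snd_sum

theorem AM.sum_v {ι : Type} (s : Finset ι) (x : ι → K.AM N) :
    (∑ i ∈ s, x i).v = ∑ i ∈ s, (x i).v := rfl

theorem F_gen {n : ℕ} (x : Fin n → N) (l : Fin n → N →ₗ[E] E) (hl : ∀ v, ∑ i, l i v • x i = v)
    (ξ : K.F N) : ∑ i, K.act (K.Fmap (l i) ξ) (x i) = ξ := by
  conv_rhs => rw [← K.Fmap_id ξ]
  have : (LinearMap.id : N →ₗ[E] N) = ∑ i, LinearMap.toSpanSingleton E N (x i) ∘ₗ l i := by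
    ext v
    simp [LinearMap.sum_apply, hl]
  rw [this, Fmap_sum]
  refine Finset.sum_congr rfl fun i _ => ?_
  rw [Fmap_comp]
  rfl

theorem BM_hom_ext [Module.Projective E N] [Module.Finite E N] {T : Type} [AddCommGroup T]
    [Module K.Lam T] (Ψ Ψ' : K.BM N →ₗ[K.Lam] T) (h : ∀ y, Ψ (K.toB 0 y) = Ψ' (K.toB 0 y)) :
    Ψ = Ψ' := by
  obtain ⟨n, x, l, hl⟩ := exists_dual_basis E N
  refine LinearMap.ext fun w => ?_
  have : w = K.toB 0 w.y + ∑ i, (⟨0, K.Fmap (l i) w.f, 0⟩ : K.Lam) • K.toB 0 (x i) := by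
    refine BM.ext K ?_ ?_
    · simp [BM.sum_f, F_gen K x l hl]
    · simp [BM.sum_y]
  rw [this]
  simp only [map_add, map_sum, map_smul, h]

/-- The second component of a map between `b`-modules. -/
def sndMap (Ψ : K.BM N →ₗ[K.Lam] K.BM N') : N →ₗ[E] N' where
  toFun y := (Ψ (K.toB 0 y)).y
  map_add' x y := by
    have : K.toB 0 (x + y) = K.toB 0 x + K.toB 0 y := by refine BM.ext K ?_ ?_ <;> simp
    rw [this, map_add]
    rfl
  map_smul' e x := by
    have : K.toB 0 (e • x) = (⟨0, 0, e⟩ : K.Lam) • K.toB 0 x := by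
      refine BM.ext K ?_ ?_ <;> simp [act_zero_left]
    simp only [this, map_smul, BM.smul_y, RingHom.id_apply]

theorem exists_bmap [Module.Projective E N] [Module.Finite E N]
    (Ψ : K.BM N →ₗ[K.Lam] K.BM N') : ∃ h : N →ₗ[E] N', Ψ = K.bmap h := by
  refine ⟨K.sndMap Ψ, K.BM_hom_ext _ _ fun y => BM.ext K ?_ rfl⟩
  have : K.toB 0 y = (⟨0, 0, 1⟩ : K.Lam) • K.toB 0 y := by
    refine BM.ext K ?_ ?_ <;> simp [act_zero_left]
  rw [this, map_smul, map_smul]
  simp [act_zero_left]

theorem hom_BA [Module.Projective E N] [Module.Finite E N]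
    (Ψ : K.BM N →ₗ[K.Lam] K.AM N') : Ψ = 0 := by
  refine K.BM_hom_ext _ _ fun y => ?_
  have : K.toB 0 y = (⟨0, 0, 1⟩ : K.Lam) • K.toB 0 y := by
    refine BM.ext K ?_ ?_ <;> simp [act_zero_left]
  rw [this, map_smul]
  ext
  simp

/-- inclusion of `a E` -/
def iA : K.AM E →ₗ[K.Lam] K.Lam where
  toFun x := ⟨x.v, 0, 0⟩
  map_add' x y := by refine Lam.ext ?_ ?_ ?_ <;> simp
  map_smul' a x := by refine Lam.ext ?_ ?_ ?_ <;> simp [act_zero_right]

/-- inclusion of `b E` -/
def iB : K.BM E →ₗ[K.Lam] K.Lam where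
  toFun x := ⟨0, x.f, x.y⟩
  map_add' x y := by refine Lam.ext ?_ ?_ ?_ <;> simp
  map_smul' a x := by refine Lam.ext ?_ ?_ ?_ <;> simp

/-- projection to `a E` -/
def pA : K.Lam →ₗ[K.Lam] K.AM E := LinearMap.toSpanSingleton _ _ (K.toA 1)

/-- projection to `b E` -/
def pB : K.Lam →ₗ[K.Lam] K.BM E := LinearMap.toSpanSingleton _ _ (K.toB 0 1)

theorem iA_pA_add (a : K.Lam) : K.iA (K.pA a) + K.iB (K.pB a) = a := by
  refine Lam.ext ?_ ?_ ?_ <;> simp [iA, iB, pA, pB, act_one, act_zero_right]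

theorem proj_fin_of_dual_basis {R P : Type} [Ring R] [AddCommGroup P] [Module R P] {n : ℕ}
    (x : Fin n → P) (l : Fin n → P →ₗ[R] R) (hl : ∀ v, ∑ i, l i v • x i = v) :
    Module.Projective R P ∧ Module.Finite R P := by
  let i : P →ₗ[R] (Fin n → R) := LinearMap.pi l
  let s : (Fin n → R) →ₗ[R] P := ∑ j, LinearMap.toSpanSingleton R P (x j) ∘ₗ LinearMap.proj j
  have h : s ∘ₗ i = LinearMap.id := by
    ext v
    simp [s, i, LinearMap.sum_apply, hl]
  exact ⟨Module.Projective.of_split i s h,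
    Module.Finite.of_surjective s (fun v => ⟨i v, LinearMap.congr_fun h v⟩)⟩

theorem AM_proj [Module.Projective E N] [Module.Finite E N] :
    Module.Projective K.Lam (K.AM N) ∧ Module.Finite K.Lam (K.AM N) := by
  obtain ⟨n, x, l, hl⟩ := exists_dual_basis E N
  refine proj_fin_of_dual_basis (fun i => K.toA (x i)) (fun i => K.iA ∘ₗ K.amap (l i)) fun v => ?_
  ext
  simp [AM.sum_v, iA, hl]

theorem BM_proj [Module.Projective E N] [Module.Finite E N] :
    Module.Projective K.Lam (K.BM N) ∧ Module.Finite K.Lam (K.BM N) := by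
  obtain ⟨n, x, l, hl⟩ := exists_dual_basis E N
  refine proj_fin_of_dual_basis (fun i => K.toB 0 (x i)) (fun i => K.iB ∘ₗ K.bmap (l i))
    fun v => BM.ext K ?_ ?_
  · simp [BM.sum_f, iB, F_gen K x l hl]
  · simp [BM.sum_y, iB, hl]

end Ctx

end Vale.Agent.P195
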